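import Mathlib

/-!
# P171: the setting (definitions used by the statement)

Classical particles in Euclidean three-space with a radial pair potential `φ`.
-/

open MeasureTheory

namespace Vale.Agent.H96.P171

/-- Euclidean three-space (with the Euclidean distance and Lebesgue measure). -/
abbrev E3 : Type := EuclideanSpace ℝ (Fin 3)

/-- `U_N(x_1,…,x_N) = ∑_{i<j} φ(|x_i - x_j|)`. -/
noncomputable def pairEnergy (φ : ℝ → ℝ) (N : ℕ) (x : Fin N → E3) : ℝ :=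
  ∑ i : Fin N, ∑ j : Fin N, if i < j then φ (dist (x i) (x j)) else 0

/-- The cube `[0,L]^3`. -/
def box (L : ℝ) : Set E3 := {p | ∀ i, 0 ≤ p i ∧ p i ≤ L}

/-- The canonical partition function `Z_{L,N}(β) = (1/N!) ∫_{Λ_L^N} exp(-β U_N)`. -/
noncomputable def canonicalZ (φ : ℝ → ℝ) (β L : ℝ) (N : ℕ) : ℝ :=
  (1 / (N.factorial : ℝ)) *
    ∫ x in {x : Fin N → E3 | ∀ i, x i ∈ box L}, Real.exp (-(β * pairEnergy φ N x))

/-- The grand partition function `∑_N z^N Z_{L,N}(β)`. -/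
noncomputable def grandZ (φ : ℝ → ℝ) (β L z : ℝ) : ℝ :=
  ∑' N : ℕ, z ^ N * canonicalZ φ β L N

/-- Stability: `U_N ≥ -B N` for all configurations of distinct points. -/
def Stable (φ : ℝ → ℝ) : Prop :=
  ∃ B : ℝ, ∀ (N : ℕ) (x : Fin N → E3), Function.Injective x → -(B * N) ≤ pairEnergy φ N x

/-- Temperedness: `φ(r) ≤ C r^(-3-ε)` for `r ≥ R0`. -/
def Tempered (φ : ℝ → ℝ) : Prop :=
  ∃ C ε R0 : ℝ, 0 < C ∧ 0 < ε ∧ 0 < R0 ∧ ∀ r : ℝ, R0 ≤ r → φ r ≤ C * r ^ (-3 - ε)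

end Vale.Agent.H96.P171
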