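import Mathlib
import Vale.Agent.H96.P171.Setting

/-!
# P171: internal definitions (family of potentials, partition functions on lists)
-/

open MeasureTheory
open scoped ENNReal

namespace Vale.Agent.H96.P171

/-- Sum of `f a b` over all pairs (`a` before `b`) of a list. -/
def lsum (f : E3 → E3 → ℝ) : List E3 → ℝ
  | [] => 0
  | a :: l => (l.map (f a)).sum + lsum f l

/-- `rho n = (n+1)!`. -/
def rho (n : ℕ) : ℕ := (n + 1).factorial

/-- The scales `R_n = 4 (n+1)! + 2`. -/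
noncomputable def Rn (n : ℕ) : ℝ := 4 * (rho n : ℝ) + 2

/-- The soft core `r^(-4)` on `r < 1`. -/
noncomputable def phi0 (r : ℝ) : ℝ := if r < 1 then (r⁻¹) ^ 4 else 0

/-- The flat bump `R_n^(-3)` on `r < R_n`. -/
noncomputable def bump (n : ℕ) (r : ℝ) : ℝ := if r < Rn n then ((Rn n)⁻¹) ^ 3 else 0

/-- The potential `Phi_t = phi0 - ∑ t_n b_n`. -/
noncomputable def Phi (t : ℕ → ℝ) (r : ℝ) : ℝ := phi0 r - ∑' n : ℕ, t n * bump n r

/-- Energy of a list of points for the potential `Phi t`. -/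
noncomputable def En (t : ℕ → ℝ) (l : List E3) : ℝ := lsum (fun a b => Phi t (dist a b)) l

/-- Boltzmann weight `exp(μ N - E_t)` of a list. -/
noncomputable def bw (μ : ℝ) (t : ℕ → ℝ) (l : List E3) : ℝ≥0∞ :=
  ENNReal.ofReal (Real.exp (μ * (l.length : ℝ) - En t l))

/-- `∫_{A^k} u(x_1,…,x_k) dx`. -/
noncomputable def cInt (A : Set E3) (u : List E3 → ℝ≥0∞) (k : ℕ) : ℝ≥0∞ :=
  ∫⁻ x : Fin k → E3, Set.indicator {x : Fin k → E3 | ∀ i, x i ∈ A} (fun x => u (List.ofFn x)) x

/-- `∑_k (1/k!) ∫_{A^k} u`. -/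
noncomputable def gInt (A : Set E3) (u : List E3 → ℝ≥0∞) : ℝ≥0∞ :=
  ∑' k : ℕ, cInt A u k / (k.factorial : ℝ≥0∞)

/-- Measurability of a weight on lists. -/
def LMeas (u : List E3 → ℝ≥0∞) : Prop :=
  ∀ k : ℕ, Measurable fun x : Fin k → E3 => u (List.ofFn x)

/-- Grand partition function of the region `A`. -/
noncomputable def Xi (A : Set E3) (μ : ℝ) (t : ℕ → ℝ) : ℝ≥0∞ := gInt A (bw μ t)

/-- `log Ξ` of the cube `[0,L]^3`. -/
noncomputable def logXi (L μ : ℝ) (t : ℕ → ℝ) : ℝ := Real.log (Xi (box L) μ t).toReal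

/-- The pressure, as a supremum over cubes (equal to the limit for attractive tails). -/
noncomputable def Fp (μ : ℝ) (t : ℕ → ℝ) : ℝ :=
  ⨆ ℓ : ℕ, logXi ((ℓ : ℝ) + 1) μ t / ((ℓ : ℝ) + 2) ^ 3

open Classical in
/-- The sub-list of the points of `l` lying in `A`. -/
noncomputable def rest (A : Set E3) (l : List E3) : List E3 := l.filter (fun p => decide (p ∈ A))

/-- Core energy of a list. -/
noncomputable def Ecore (l : List E3) : ℝ := lsum (fun a b => phi0 (dist a b)) l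

/-- Bump energy `W_n` of a list. -/
noncomputable def Wn (n : ℕ) (l : List E3) : ℝ := lsum (fun a b => bump n (dist a b)) l

/-- The coefficients of the trial minorant. -/
noncomputable def lam (n : ℕ) : ℝ := ((Rn n)⁻¹) ^ 3 * ((2 * (rho n : ℝ) + 1) ^ 3 - 1) / 32

/-- Admissible parameters: nonnegative summable sequences. -/
def Adm (t : ℕ → ℝ) : Prop := (∀ n, 0 ≤ t n) ∧ Summable t

/-- `t + σ e_n`. -/
noncomputable def addAt (t : ℕ → ℝ) (n : ℕ) (σ : ℝ) : ℕ → ℝ := fun k => t k + if k = n then σ else 0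

end Vale.Agent.H96.P171
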