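import Mathlib
import Vale.Agent.H96.P171.Defs
import Vale.Agent.H96.P171.Energy.Lsum
import Vale.Agent.H96.P171.Energy.Basic
import Vale.Agent.H91.P171.PairCount

/-!
# P171 moonshot, step (1): stability and superstability (module; its taker may split it)

Cubes `s` of side `1/m`: two points of one cube are at distance `≤ √3/m < 1`, so they cost `≥ H = m^4/9`.
Pairs within `R_k`: at most `(1/2)(2 m R_k + 3)^3 ∑_s n_s^2` (for each offset `v`, `∑_s n_s n_(s+v) ≤ ∑_s n_s^2`),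
and `(2 m R_k + 3)^3 ≤ 125 m^3 R_k^3`. So `E_t ≥ ((H - 125 m^3 T)/2) ∑_s n_s^2 - (H/2) N`; choose `m` large.
For `superstab` use `∑_s n_s^2 ≥ N^2 / #cubes` and `#cubes ≤ (m K + 1)^3 ≤ 8 m^3 K^3` for `K ≥ 1`.
Paper proof: `Vale/Agent/H96/P171/PLAN.md`.
-/

open MeasureTheory
open scoped ENNReal

namespace Vale.Agent.H96.P171

open Vale.Agent.H91.P171 (occ sameCell pairs_diff_mem_le card_sq_le_sameCell box3 card_box3
  mem_box3 floor_div_sub_le sameCell_eq_card)

/-- `lsum` as a double sum over positions. -/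
theorem stab_lsum_get (f : E3 → E3 → ℝ) (l : List E3) :
    lsum f l = ∑ i : Fin l.length, ∑ j : Fin l.length,
      if i < j then f (l.get i) (l.get j) else 0 := by
  induction l with
  | nil => simp [lsum]
  | cons a l ih =>
    simp only [lsum, List.length_cons]
    rw [Fin.sum_univ_succ, ih]
    congr 1
    · rw [Fin.sum_univ_succ]
      simp only [lt_self_iff_false, if_false, zero_add, Fin.succ_pos, if_true, List.get_cons_zero]
      rw [← Fin.sum_univ_fun_getElem]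
      rfl
    · refine Finset.sum_congr rfl fun i _ => ?_
      rw [Fin.sum_univ_succ]
      simp only [Fin.not_lt_zero, if_false, zero_add, Fin.succ_lt_succ_iff]
      rfl

/-- Cell index of the `i`-th point: cubes of side `1/m`. -/
noncomputable def stab_cell (m : ℕ) (l : List E3) : Fin l.length → (Fin 3 → ℤ) :=
  fun i k => ⌊(l.get i) k / ((m : ℝ)⁻¹)⌋

theorem stab_coord_le (a b : E3) (k : Fin 3) : |a k - b k| ≤ dist a b := by
  have h := PiLp.norm_apply_le (a - b) k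
  rw [dist_eq_norm]
  simpa [Real.norm_eq_abs] using h

theorem stab_dist_sq (a b : E3) :
    dist a b ^ 2 = (a 0 - b 0) ^ 2 + (a 1 - b 1) ^ 2 + (a 2 - b 2) ^ 2 := by
  rw [EuclideanSpace.dist_eq, Real.sq_sqrt (Finset.sum_nonneg fun i _ => sq_nonneg _),
    Fin.sum_univ_three]
  simp [Real.dist_eq, sq_abs]

/-- Two distinct points in one cube of side `1/m` cost at least `m^4/9`. -/
theorem stab_pair_core (m : ℕ) (hm : 2 ≤ m) (a b : E3) (hab : a ≠ b)
    (h : ∀ k, ⌊a k / ((m : ℝ)⁻¹)⌋ = ⌊b k / ((m : ℝ)⁻¹)⌋) :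
    (m : ℝ) ^ 4 / 9 ≤ phi0 (dist a b) := by
  have hm2 : (2 : ℝ) ≤ m := by exact_mod_cast hm
  have hm0 : (0 : ℝ) < m := by linarith
  have hk : ∀ k, (m : ℝ) ^ 2 * (a k - b k) ^ 2 < 1 := by
    intro k
    have h1 := Int.abs_sub_lt_one_of_floor_eq_floor (h k)
    rw [div_inv_eq_mul, div_inv_eq_mul, ← sub_mul, abs_mul, abs_of_pos hm0] at h1
    have h0 : 0 ≤ |a k - b k| * (m : ℝ) := by positivity
    have h2 : (|a k - b k| * (m : ℝ)) ^ 2 < 1 := by nlinarith
    rw [mul_pow, sq_abs] at h2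
    linarith
  have hd : 0 < dist a b := dist_pos.mpr hab
  have hsq := stab_dist_sq a b
  have h3 : (m : ℝ) ^ 2 * dist a b ^ 2 < 3 := by
    rw [hsq]
    have := hk 0
    have := hk 1
    have := hk 2
    nlinarith
  have hd1 : dist a b < 1 := by
    by_contra hc
    push Not at hc
    have : (1 : ℝ) ≤ dist a b ^ 2 := by nlinarith
    nlinarith
  unfold phi0
  rw [if_pos hd1]
  set d := dist a b with hd_def
  set e := d⁻¹ with he_def
  have he : d * e = 1 := mul_inv_cancel₀ hd.ne'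
  have he0 : 0 < e := inv_pos.mpr hd
  have h4 : (m : ℝ) ^ 2 < 3 * e ^ 2 := by
    have : (m : ℝ) ^ 2 = ((m : ℝ) ^ 2 * d ^ 2) * e ^ 2 := by
      rw [mul_assoc, ← mul_pow, he]
      ring
    rw [this]
    have he2 : 0 < e ^ 2 := by positivity
    nlinarith
  have h5 : 0 < (m : ℝ) ^ 2 := by positivity
  nlinarith [h4, h5, sq_nonneg (e ^ 2)]

/-- Two points at distance `< R` have cell indices differing by at most `⌈R m⌉`. -/
theorem stab_pair_far (m : ℕ) (hm : 2 ≤ m) (a b : E3) (R : ℝ) (hR : dist a b < R) (k : Fin 3) :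
    |⌊b k / ((m : ℝ)⁻¹)⌋ - ⌊a k / ((m : ℝ)⁻¹)⌋| ≤ ⌈R / ((m : ℝ)⁻¹)⌉ := by
  have hm2 : (2 : ℝ) ≤ m := by exact_mod_cast hm
  have hm0 : (0 : ℝ) < (m : ℝ)⁻¹ := by positivity
  apply floor_div_sub_le _ _ _ _ hm0
  have := stab_coord_le b a k
  rw [dist_comm] at this
  linarith

theorem stab_Rn_ge (n : ℕ) : 6 ≤ Rn n := by
  unfold Rn rho
  have : (1 : ℝ) ≤ ((n + 1).factorial : ℝ) := by exact_mod_cast Nat.factorial_pos _
  linarith

theorem stab_bump_nonneg (n : ℕ) (r : ℝ) : 0 ≤ bump n r := by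
  unfold bump
  have := stab_Rn_ge n
  split_ifs
  · positivity
  · exact le_refl _

theorem stab_bump_le_one (n : ℕ) (r : ℝ) : bump n r ≤ 1 := by
  unfold bump
  have := stab_Rn_ge n
  split_ifs
  · have h1 : (Rn n)⁻¹ ≤ 1 := inv_le_one_of_one_le₀ (by linarith)
    have h0 : 0 ≤ (Rn n)⁻¹ := by positivity
    exact pow_le_one₀ h0 h1
  · norm_num

/-- Core part: at least `H` for every pair of points in one small cube. -/
theorem stab_core_sum (m : ℕ) (hm : 2 ≤ m) (l : List E3) (hl : l.Nodup) :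
    (m : ℝ) ^ 4 / 9 * (((sameCell (stab_cell m l) : ℝ) - (l.length : ℝ)) / 2) ≤
      ∑ p : Fin l.length × Fin l.length,
        if p.1 < p.2 then phi0 (dist (l.get p.1) (l.get p.2)) else 0 := by
  classical
  set c := stab_cell m l with hc
  set A := (Finset.univ.filter fun p : Fin l.length × Fin l.length => p.1 < p.2 ∧ c p.1 = c p.2)
    with hA
  have hinj : Function.Injective l.get := List.nodup_iff_injective_get.mp hl
  have hH : (0 : ℝ) ≤ (m : ℝ) ^ 4 / 9 := by positivity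
  -- (a) the sum is at least `H * card A`
  have ha : (m : ℝ) ^ 4 / 9 * (A.card : ℝ) ≤
      ∑ p : Fin l.length × Fin l.length,
        if p.1 < p.2 then phi0 (dist (l.get p.1) (l.get p.2)) else 0 := by
    have h1 : (m : ℝ) ^ 4 / 9 * (A.card : ℝ) =
        ∑ p : Fin l.length × Fin l.length,
          if p.1 < p.2 ∧ c p.1 = c p.2 then (m : ℝ) ^ 4 / 9 else 0 := by
      rw [← Finset.sum_filter, Finset.sum_const, nsmul_eq_mul, mul_comm]
    rw [h1]
    refine Finset.sum_le_sum fun p _ => ?_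
    by_cases h : p.1 < p.2 ∧ c p.1 = c p.2
    · rw [if_pos h, if_pos h.1]
      apply stab_pair_core m hm
      · intro hEq
        exact (ne_of_lt h.1) (hinj hEq)
      · intro k
        exact congrFun h.2 k
    · rw [if_neg h]
      split_ifs
      · unfold phi0
        split_ifs
        · positivity
        · exact le_refl _
      · exact le_refl _
  -- (b) `Q ≤ N + 2 card A`
  have hb : sameCell c ≤ l.length + 2 * A.card := by
    rw [sameCell_eq_card]
    have hsub : (Finset.univ.filter fun p : Fin l.length × Fin l.length => c p.2 = c p.1) ⊆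
        (Finset.univ : Finset (Fin l.length)).diag ∪ A ∪ A.image Prod.swap := by
      intro p hp
      rw [Finset.mem_filter] at hp
      rw [Finset.mem_union, Finset.mem_union]
      rcases lt_trichotomy p.1 p.2 with h | h | h
      · left; right
        rw [hA, Finset.mem_filter]
        exact ⟨Finset.mem_univ _, h, hp.2.symm⟩
      · left; left
        rw [Finset.mem_diag]
        exact ⟨Finset.mem_univ _, h⟩
      · right
        rw [Finset.mem_image]
        refine ⟨p.swap, ?_, Prod.swap_swap p⟩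
        rw [hA, Finset.mem_filter]
        exact ⟨Finset.mem_univ _, h, hp.2⟩
    calc (Finset.univ.filter fun p : Fin l.length × Fin l.length => c p.2 = c p.1).card
        ≤ ((Finset.univ : Finset (Fin l.length)).diag ∪ A ∪ A.image Prod.swap).card :=
          Finset.card_le_card hsub
      _ ≤ ((Finset.univ : Finset (Fin l.length)).diag ∪ A).card + (A.image Prod.swap).card :=
          Finset.card_union_le _ _
      _ ≤ ((Finset.univ : Finset (Fin l.length)).diag.card + A.card) + A.card :=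
          Nat.add_le_add (Finset.card_union_le _ _) Finset.card_image_le
      _ = l.length + 2 * A.card := by
          rw [Finset.diag_card, Finset.card_univ, Fintype.card_fin]
          ring
  have hb' : (sameCell c : ℝ) ≤ (l.length : ℝ) + 2 * (A.card : ℝ) := by exact_mod_cast hb
  calc (m : ℝ) ^ 4 / 9 * (((sameCell c : ℝ) - (l.length : ℝ)) / 2)
      ≤ (m : ℝ) ^ 4 / 9 * (A.card : ℝ) := by
        apply mul_le_mul_of_nonneg_left _ hH
        linarith
    _ ≤ _ := ha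

/-- Bump part: at most `16 m^3 Q`. -/
theorem stab_bump_sum (m : ℕ) (hm : 2 ≤ m) (l : List E3) (n : ℕ) :
    (∑ p : Fin l.length × Fin l.length,
        if p.1 < p.2 then bump n (dist (l.get p.1) (l.get p.2)) else 0) ≤
      16 * (m : ℝ) ^ 3 * (sameCell (stab_cell m l) : ℝ) := by
  classical
  set c := stab_cell m l with hc
  have hR := stab_Rn_ge n
  have hm2 : (2 : ℝ) ≤ m := by exact_mod_cast hm
  set y : ℝ := Rn n / ((m : ℝ)⁻¹) with hy
  have hy' : y = Rn n * m := by rw [hy, div_inv_eq_mul]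
  have hy12 : 12 ≤ y := by rw [hy']; nlinarith
  have hceil0 : 0 ≤ ⌈y⌉ := Int.ceil_nonneg (by linarith)
  set kn : ℕ := ⌈y⌉.toNat with hkn
  have hkn' : (kn : ℤ) = ⌈y⌉ := Int.toNat_of_nonneg hceil0
  set r : ℝ := ((Rn n)⁻¹) ^ 3 with hr
  have hr0 : 0 ≤ r := by rw [hr]; positivity
  -- pointwise bound
  have h1 : (∑ p : Fin l.length × Fin l.length,
        if p.1 < p.2 then bump n (dist (l.get p.1) (l.get p.2)) else 0) ≤
      ∑ p : Fin l.length × Fin l.length, if c p.2 - c p.1 ∈ box3 kn then r else 0 := by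
    refine Finset.sum_le_sum fun p _ => ?_
    by_cases hlt : p.1 < p.2
    · rw [if_pos hlt]
      unfold bump
      by_cases hd : dist (l.get p.1) (l.get p.2) < Rn n
      · rw [if_pos hd]
        have hmem : c p.2 - c p.1 ∈ box3 kn := by
          rw [mem_box3]
          intro k
          rw [hkn']
          exact stab_pair_far m hm (l.get p.1) (l.get p.2) (Rn n) hd k
        rw [if_pos hmem]
      · rw [if_neg hd]
        split_ifs
        · exact hr0
        · exact le_refl _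
    · rw [if_neg hlt]
      split_ifs
      · exact hr0
      · exact le_refl _
  have h2 : (∑ p : Fin l.length × Fin l.length, if c p.2 - c p.1 ∈ box3 kn then r else 0) =
      r * ((Finset.univ.filter fun p : Fin l.length × Fin l.length =>
        c p.2 - c p.1 ∈ box3 kn).card : ℝ) := by
    rw [← Finset.sum_filter, Finset.sum_const, nsmul_eq_mul, mul_comm]
  have h3 := pairs_diff_mem_le c (box3 kn)
  rw [card_box3] at h3
  have h3' : ((Finset.univ.filter fun p : Fin l.length × Fin l.length =>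
        c p.2 - c p.1 ∈ box3 kn).card : ℝ) ≤ (2 * (kn : ℝ) + 1) ^ 3 * (sameCell c : ℝ) := by
    exact_mod_cast h3
  have hknR : (kn : ℝ) ≤ y + 1 := by
    have : ((kn : ℤ) : ℝ) = ((⌈y⌉ : ℤ) : ℝ) := by rw [hkn']
    have h4 : ((kn : ℤ) : ℝ) = (kn : ℝ) := by norm_cast
    rw [h4] at this
    rw [this]
    exact (Int.ceil_lt_add_one y).le
  have hQ0 : (0 : ℝ) ≤ (sameCell c : ℝ) := Nat.cast_nonneg _
  -- numeric bound `r (2 kn + 1)^3 ≤ 16 m^3`
  have h5 : r * (2 * (kn : ℝ) + 1) ^ 3 ≤ 16 * (m : ℝ) ^ 3 := by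
    have hkn0 : (0 : ℝ) ≤ kn := Nat.cast_nonneg _
    have h6 : 2 * (kn : ℝ) + 1 ≤ (9 / 4) * y := by linarith
    have h7 : (2 * (kn : ℝ) + 1) ^ 3 ≤ ((9 / 4) * y) ^ 3 :=
      pow_le_pow_left₀ (by linarith) h6 3
    have h8 : r * y ^ 3 = (m : ℝ) ^ 3 := by
      rw [hr, hy', ← mul_pow]
      rw [← mul_assoc, inv_mul_cancel₀ (by linarith), one_mul]
    calc r * (2 * (kn : ℝ) + 1) ^ 3 ≤ r * ((9 / 4) * y) ^ 3 := mul_le_mul_of_nonneg_left h7 hr0
      _ = (729 / 64) * (r * y ^ 3) := by ring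
      _ = (729 / 64) * (m : ℝ) ^ 3 := by rw [h8]
      _ ≤ 16 * (m : ℝ) ^ 3 := by
          have : (0 : ℝ) ≤ (m : ℝ) ^ 3 := by positivity
          linarith
  calc (∑ p : Fin l.length × Fin l.length,
        if p.1 < p.2 then bump n (dist (l.get p.1) (l.get p.2)) else 0)
      ≤ r * ((Finset.univ.filter fun p : Fin l.length × Fin l.length =>
        c p.2 - c p.1 ∈ box3 kn).card : ℝ) := by rw [← h2]; exact h1
    _ ≤ r * ((2 * (kn : ℝ) + 1) ^ 3 * (sameCell c : ℝ)) := mul_le_mul_of_nonneg_left h3' hr0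
    _ = (r * (2 * (kn : ℝ) + 1) ^ 3) * (sameCell c : ℝ) := by ring
    _ ≤ 16 * (m : ℝ) ^ 3 * (sameCell c : ℝ) := mul_le_mul_of_nonneg_right h5 hQ0

/-- The basic energy estimate with cubes of side `1/m`. -/
theorem stab_main (m : ℕ) (hm : 2 ≤ m) (t : ℕ → ℝ) (ht : Adm t) (T : ℝ) (hT : ∑' n, t n ≤ T)
    (l : List E3) (hl : l.Nodup) :
    ((m : ℝ) ^ 4 / 18 - 16 * (m : ℝ) ^ 3 * T) * (sameCell (stab_cell m l) : ℝ) -
      (m : ℝ) ^ 4 / 18 * (l.length : ℝ) ≤ En t l := by
  classical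
  set Q : ℝ := (sameCell (stab_cell m l) : ℝ) with hQ
  have hQ0 : 0 ≤ Q := Nat.cast_nonneg _
  have hm0 : (0 : ℝ) ≤ (m : ℝ) ^ 3 := by positivity
  -- the two pair functions
  set a : Fin l.length × Fin l.length → ℝ :=
    fun p => if p.1 < p.2 then phi0 (dist (l.get p.1) (l.get p.2)) else 0 with ha
  set w : ℕ → Fin l.length × Fin l.length → ℝ :=
    fun n p => if p.1 < p.2 then bump n (dist (l.get p.1) (l.get p.2)) else 0 with hw
  have hw0 : ∀ n p, 0 ≤ w n p := by
    intro n p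
    simp only [hw]
    split_ifs
    · exact stab_bump_nonneg _ _
    · exact le_refl _
  have hw1 : ∀ n p, w n p ≤ 1 := by
    intro n p
    simp only [hw]
    split_ifs
    · exact stab_bump_le_one _ _
    · norm_num
  have hsum : ∀ p, Summable fun n => t n * w n p := by
    intro p
    refine Summable.of_nonneg_of_le (fun n => mul_nonneg (ht.1 n) (hw0 n p)) (fun n => ?_) ht.2
    calc t n * w n p ≤ t n * 1 := mul_le_mul_of_nonneg_left (hw1 n p) (ht.1 n)
      _ = t n := mul_one _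
  have hE : En t l = ∑ p : Fin l.length × Fin l.length, (a p - ∑' n, t n * w n p) := by
    unfold En
    rw [stab_lsum_get]
    rw [← Fintype.sum_prod_type' (fun i j : Fin l.length =>
      if i < j then Phi t (dist (l.get i) (l.get j)) else 0)]
    refine Finset.sum_congr rfl fun p _ => ?_
    simp only [ha, hw]
    by_cases h : p.1 < p.2
    · simp only [if_pos h]
      rfl
    · simp only [if_neg h, mul_zero, tsum_zero, sub_zero]
  have hS : ∑ p : Fin l.length × Fin l.length, (∑' n, t n * w n p) =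
      ∑' n, t n * ∑ p : Fin l.length × Fin l.length, w n p := by
    rw [← Summable.tsum_finsetSum (fun p _ => hsum p)]
    refine tsum_congr fun n => ?_
    rw [Finset.mul_sum]
  have hbd : ∀ n, t n * ∑ p : Fin l.length × Fin l.length, w n p ≤ t n * (16 * (m : ℝ) ^ 3 * Q) :=
    fun n => mul_le_mul_of_nonneg_left (stab_bump_sum m hm l n) (ht.1 n)
  have hsumR : Summable fun n => t n * (16 * (m : ℝ) ^ 3 * Q) := ht.2.mul_right _
  have hsumL : Summable fun n => t n * ∑ p : Fin l.length × Fin l.length, w n p :=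
    Summable.of_nonneg_of_le
      (fun n => mul_nonneg (ht.1 n) (Finset.sum_nonneg fun p _ => hw0 n p)) hbd hsumR
  have hT2 : ∑' n, t n * ∑ p : Fin l.length × Fin l.length, w n p ≤ T * (16 * (m : ℝ) ^ 3 * Q) := by
    calc ∑' n, t n * ∑ p : Fin l.length × Fin l.length, w n p
        ≤ ∑' n, t n * (16 * (m : ℝ) ^ 3 * Q) := Summable.tsum_le_tsum hbd hsumL hsumR
      _ = (∑' n, t n) * (16 * (m : ℝ) ^ 3 * Q) := tsum_mul_right
      _ ≤ T * (16 * (m : ℝ) ^ 3 * Q) := mul_le_mul_of_nonneg_right hT (by positivity)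
  have hcore := stab_core_sum m hm l hl
  rw [hE, Finset.sum_sub_distrib, hS]
  have : (m : ℝ) ^ 4 / 9 * ((Q - (l.length : ℝ)) / 2) ≤ ∑ p : Fin l.length × Fin l.length, a p :=
    hcore
  nlinarith [this, hT2]

/-- Stability, uniform on bounded sets of parameters. -/
theorem stab (T : ℝ) : ∃ B : ℝ, 0 ≤ B ∧ ∀ t : ℕ → ℝ, Adm t → ∑' n, t n ≤ T →
    ∀ l : List E3, l.Nodup → -(B * (l.length : ℝ)) ≤ En t l := by
  obtain ⟨m, hm⟩ := exists_nat_ge (288 * |T| + 2)
  have hm2 : 2 ≤ m := by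
    have : (2 : ℝ) ≤ m := by linarith [abs_nonneg T]
    exact_mod_cast this
  refine ⟨(m : ℝ) ^ 4 / 18, by positivity, fun t ht hT l hl => ?_⟩
  have h := stab_main m hm2 t ht T hT l hl
  have hQ0 : (0 : ℝ) ≤ (sameCell (stab_cell m l) : ℝ) := Nat.cast_nonneg _
  have hcoef : 0 ≤ (m : ℝ) ^ 4 / 18 - 16 * (m : ℝ) ^ 3 * T := by
    have h3 : (0 : ℝ) ≤ (m : ℝ) ^ 3 := by positivity
    have h4 : 16 * T ≤ (m : ℝ) / 18 := by linarith [le_abs_self T, abs_nonneg T]
    have : (m : ℝ) ^ 4 / 18 - 16 * (m : ℝ) ^ 3 * T = (m : ℝ) ^ 3 * ((m : ℝ) / 18 - 16 * T) := by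
      ring
    rw [this]
    exact mul_nonneg h3 (by linarith)
  have := mul_nonneg hcoef hQ0
  linarith

/-- In a cube of integer side `K ≥ 1` there are at most `(m K + 1)^3` cells. -/
theorem stab_count (m K : ℕ) (l : List E3) (hbox : ∀ p ∈ l, p ∈ box K) :
    l.length ^ 2 ≤ (m * K + 1) ^ 3 * sameCell (stab_cell m l) := by
  classical
  set S : Finset (Fin 3 → ℤ) := Fintype.piFinset fun _ => Finset.Icc (0 : ℤ) ((m * K : ℕ) : ℤ)
    with hS
  have hcard : S.card = (m * K + 1) ^ 3 := by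
    rw [hS, Fintype.card_piFinset]
    simp only [Int.card_Icc, Finset.prod_const, Finset.card_univ, Fintype.card_fin]
    congr 1
  have hmem : ∀ i, stab_cell m l i ∈ S := by
    intro i
    rw [hS, Fintype.mem_piFinset]
    intro k
    rw [Finset.mem_Icc]
    have hb := hbox (l.get i) (List.get_mem l i) k
    have hm0 : (0 : ℝ) ≤ (m : ℝ) := Nat.cast_nonneg _
    unfold stab_cell
    rw [div_inv_eq_mul]
    constructor
    · exact Int.floor_nonneg.mpr (mul_nonneg hb.1 hm0)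
    · have h1 : ((⌊(l.get i) k * (m : ℝ)⌋ : ℤ) : ℝ) ≤ (l.get i) k * (m : ℝ) := Int.floor_le _
      have h2 : (l.get i) k * (m : ℝ) ≤ (K : ℝ) * (m : ℝ) := mul_le_mul_of_nonneg_right hb.2 hm0
      have h3 : ((⌊(l.get i) k * (m : ℝ)⌋ : ℤ) : ℝ) ≤ (((m * K : ℕ) : ℤ) : ℝ) := by
        push_cast
        linarith
      exact_mod_cast h3
  have h := card_sq_le_sameCell (stab_cell m l) S hmem
  rw [Fintype.card_fin, hcard] at h
  exact h

/-- Superstability in a cube of integer side `K`. -/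
theorem superstab (T A : ℝ) : ∃ C : ℝ, 0 ≤ C ∧ ∀ t : ℕ → ℝ, Adm t → ∑' n, t n ≤ T →
    ∀ (K : ℕ) (l : List E3), l.Nodup → (∀ p ∈ l, p ∈ box K) →
      A * (l.length : ℝ) ^ 2 / (K : ℝ) ^ 3 - C * (l.length : ℝ) ≤ En t l := by
  obtain ⟨m, hm⟩ := exists_nat_ge (144 * |A| + 288 * |T| + 2)
  have hm2 : 2 ≤ m := by
    have : (2 : ℝ) ≤ m := by linarith [abs_nonneg T, abs_nonneg A]
    exact_mod_cast this
  have hmR : (2 : ℝ) ≤ m := by exact_mod_cast hm2
  refine ⟨(m : ℝ) ^ 4 / 18, by positivity, fun t ht hT K l hl hbox => ?_⟩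
  have h := stab_main m hm2 t ht T hT l hl
  set Q : ℝ := (sameCell (stab_cell m l) : ℝ) with hQ
  set N : ℝ := (l.length : ℝ) with hN
  have hQ0 : (0 : ℝ) ≤ Q := Nat.cast_nonneg _
  have h3 : (0 : ℝ) < (m : ℝ) ^ 3 := by positivity
  have h4 : 8 * |A| ≤ (m : ℝ) / 18 - 16 * T := by
    linarith [le_abs_self T, abs_nonneg T, abs_nonneg A]
  have hcoef : 8 * |A| * (m : ℝ) ^ 3 ≤ (m : ℝ) ^ 4 / 18 - 16 * (m : ℝ) ^ 3 * T := by
    have : (m : ℝ) ^ 4 / 18 - 16 * (m : ℝ) ^ 3 * T = (m : ℝ) ^ 3 * ((m : ℝ) / 18 - 16 * T) := by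
      ring
    rw [this]
    nlinarith
  have hA0 : 0 ≤ |A| := abs_nonneg A
  have h5 : 8 * |A| * (m : ℝ) ^ 3 * Q ≤ ((m : ℝ) ^ 4 / 18 - 16 * (m : ℝ) ^ 3 * T) * Q :=
    mul_le_mul_of_nonneg_right hcoef hQ0
  rcases Nat.eq_zero_or_pos K with hK | hK
  · subst hK
    have h6 : (0 : ℝ) ≤ 8 * |A| * (m : ℝ) ^ 3 * Q := by positivity
    simp only [Nat.cast_zero, ne_eq, OfNat.ofNat_ne_zero, not_false_eq_true, zero_pow, div_zero,
      zero_sub]
    linarith
  · have hKR : (1 : ℝ) ≤ (K : ℝ) := by exact_mod_cast hK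
    have hcnt := stab_count m K l hbox
    have hcnt' : N ^ 2 ≤ ((m : ℝ) * (K : ℝ) + 1) ^ 3 * Q := by
      rw [hN, hQ]
      exact_mod_cast hcnt
    have hmK : (m : ℝ) * (K : ℝ) + 1 ≤ 2 * ((m : ℝ) * (K : ℝ)) := by nlinarith
    have hmK3 : ((m : ℝ) * (K : ℝ) + 1) ^ 3 ≤ (2 * ((m : ℝ) * (K : ℝ))) ^ 3 :=
      pow_le_pow_left₀ (by positivity) hmK 3
    have h7 : N ^ 2 ≤ 8 * (m : ℝ) ^ 3 * (K : ℝ) ^ 3 * Q := by
      calc N ^ 2 ≤ ((m : ℝ) * (K : ℝ) + 1) ^ 3 * Q := hcnt'
        _ ≤ (2 * ((m : ℝ) * (K : ℝ))) ^ 3 * Q := mul_le_mul_of_nonneg_right hmK3 hQ0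
        _ = 8 * (m : ℝ) ^ 3 * (K : ℝ) ^ 3 * Q := by ring
    have hK3 : (0 : ℝ) < (K : ℝ) ^ 3 := by positivity
    have h8 : A * N ^ 2 / (K : ℝ) ^ 3 ≤ 8 * |A| * (m : ℝ) ^ 3 * Q := by
      rw [div_le_iff₀ hK3]
      have h9 : A * N ^ 2 ≤ |A| * N ^ 2 :=
        mul_le_mul_of_nonneg_right (le_abs_self A) (sq_nonneg N)
      have h10 : |A| * N ^ 2 ≤ |A| * (8 * (m : ℝ) ^ 3 * (K : ℝ) ^ 3 * Q) :=
        mul_le_mul_of_nonneg_left h7 hA0
      calc A * N ^ 2 ≤ |A| * N ^ 2 := h9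
        _ ≤ |A| * (8 * (m : ℝ) ^ 3 * (K : ℝ) ^ 3 * Q) := h10
        _ = 8 * |A| * (m : ℝ) ^ 3 * Q * (K : ℝ) ^ 3 := by ring
    linarith

end Vale.Agent.H96.P171
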