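import Mathlib
import Vale.Agent.H96.P171.Defs
import Vale.Agent.H96.P171.Meas
import Vale.Agent.H96.P171.Stab

/-!
# P171 moonshot, bounds on the partition function (from stability)

`Xi ≥ 1` (term `k = 0`); `Xi(box L) ≤ exp(e^(μ+B) L^3)` from `stab`, `ae_nodup`, `cInt_one`, `volume_box`.
Paper proof: `Vale/Agent/H96/P171/PLAN.md`.
-/

open MeasureTheory
open scoped ENNReal

namespace Vale.Agent.H96.P171

/-- The term `k = 0` of `gInt`: the weight of the empty list. -/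
theorem bounds_cInt_zero (A : Set E3) (u : List E3 → ℝ≥0∞) : cInt A u 0 = u [] := by
  unfold cInt
  have hs : {x : Fin 0 → E3 | ∀ i, x i ∈ A} = Set.univ := by
    ext x
    simp
  have hu : (Set.univ : Set (Fin 0 → E3)) = Set.univ.pi (fun _ => Set.univ) :=
    (Set.pi_univ _).symm
  have hf : (fun x : Fin 0 → E3 => u (List.ofFn x)) = fun _ => u [] := by
    funext x
    rw [List.ofFn_zero]
  rw [hs, Set.indicator_univ, hf, lintegral_const, hu, volume_pi_pi]
  simp

/-- The Boltzmann weight of the empty list is `1`. -/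
theorem bounds_bw_nil (μ : ℝ) (t : ℕ → ℝ) : bw μ t [] = 1 := by
  unfold bw En
  simp [lsum]

/-- The integral over `A^k` of a weight depending only on the length. -/
theorem bounds_cInt_const (A : Set E3) (hA : MeasurableSet A) (c : ℕ → ℝ≥0∞) (k : ℕ) :
    cInt A (fun l => c l.length) k = c k * volume A ^ k := by
  unfold cInt
  have hS : {x : Fin k → E3 | ∀ i, x i ∈ A} = Set.pi Set.univ (fun _ : Fin k => A) := by
    ext x
    simp
  have hf : (fun x : Fin k → E3 => c (List.ofFn x).length) = fun _ => c k := by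
    funext x
    rw [List.length_ofFn]
  rw [hS, hf, lintegral_indicator_const (MeasurableSet.univ_pi (fun _ => hA)), volume_pi_pi]
  simp only [Finset.prod_const, Finset.card_univ, Fintype.card_fin]

theorem one_le_Xi (A : Set E3) (μ : ℝ) (t : ℕ → ℝ) : 1 ≤ Xi A μ t := by
  unfold Xi gInt
  have h0 : cInt A (bw μ t) 0 / ((Nat.factorial 0 : ℕ) : ℝ≥0∞) = 1 := by
    rw [bounds_cInt_zero, bounds_bw_nil]
    simp
  calc (1 : ℝ≥0∞) = cInt A (bw μ t) 0 / ((Nat.factorial 0 : ℕ) : ℝ≥0∞) := h0.symm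
    _ ≤ ∑' k : ℕ, cInt A (bw μ t) k / (k.factorial : ℝ≥0∞) :=
        ENNReal.le_tsum (f := fun k : ℕ => cInt A (bw μ t) k / (k.factorial : ℝ≥0∞)) 0

theorem Xi_le (T : ℝ) : ∃ B : ℝ, 0 ≤ B ∧ ∀ t : ℕ → ℝ, Adm t → ∑' n, t n ≤ T →
    ∀ μ L : ℝ, 0 ≤ L →
      Xi (box L) μ t ≤ ENNReal.ofReal (Real.exp (Real.exp (μ + B) * L ^ 3)) := by
  obtain ⟨B, hB0, hB⟩ := stab T
  refine ⟨B, hB0, ?_⟩
  intro t ht hT μ L hL
  have h1 : Xi (box L) μ t ≤
      gInt (box L) (fun l => ENNReal.ofReal (Real.exp ((μ + B) * (l.length : ℝ)))) := by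
    unfold Xi
    refine gInt_mono_fun (box L) _ _ ?_
    intro l hl _
    unfold bw
    apply ENNReal.ofReal_le_ofReal
    apply Real.exp_le_exp.2
    have h := hB t ht hT l hl
    have e : (μ + B) * (l.length : ℝ) = μ * (l.length : ℝ) + B * (l.length : ℝ) := by ring
    rw [e]
    linarith
  have h2 : gInt (box L) (fun l => ENNReal.ofReal (Real.exp ((μ + B) * (l.length : ℝ)))) =
      ENNReal.ofReal (Real.exp (Real.exp (μ + B) * L ^ 3)) := by
    unfold gInt
    obtain ⟨y, hy⟩ : ∃ y : ℝ, y = Real.exp (μ + B) * L ^ 3 := ⟨_, rfl⟩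
    have hy0 : 0 ≤ y := by
      rw [hy]
      positivity
    have hterm : ∀ k : ℕ,
        cInt (box L) (fun l => ENNReal.ofReal (Real.exp ((μ + B) * (l.length : ℝ)))) k /
          (k.factorial : ℝ≥0∞) = ENNReal.ofReal (y ^ k / (k.factorial : ℝ)) := by
      intro k
      have hc := bounds_cInt_const (box L) (measurableSet_box L)
        (fun n => ENNReal.ofReal (Real.exp ((μ + B) * (n : ℝ)))) k
      have hfac : (0 : ℝ) < (k.factorial : ℝ) := by exact_mod_cast Nat.factorial_pos k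
      have e : Real.exp ((μ + B) * (k : ℝ)) = Real.exp (μ + B) ^ k := by
        rw [mul_comm, Real.exp_nat_mul]
      rw [hc, volume_box L hL, ENNReal.ofReal_div_of_pos hfac, ENNReal.ofReal_natCast,
        ← ENNReal.ofReal_pow (by positivity), ← ENNReal.ofReal_mul (Real.exp_pos _).le, e,
        ← mul_pow, ← hy]
    rw [tsum_congr hterm, ← ENNReal.ofReal_tsum_of_nonneg (fun k => by positivity)
      (Real.summable_pow_div_factorial y)]
    congr 1
    have h := NormedSpace.expSeries_div_hasSum_exp y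
    rw [← Real.exp_eq_exp_ℝ] at h
    rw [← hy]
    exact h.tsum_eq
  exact h1.trans (le_of_eq h2)

theorem Xi_ne_top (t : ℕ → ℝ) (h : Adm t) (μ L : ℝ) (hL : 0 ≤ L) : Xi (box L) μ t ≠ ⊤ := by
  obtain ⟨B, _, hB⟩ := Xi_le (∑' n, t n)
  exact ne_top_of_le_ne_top ENNReal.ofReal_ne_top (hB t h le_rfl μ L hL)

theorem logXi_nonneg (L μ : ℝ) (t : ℕ → ℝ) : 0 ≤ logXi L μ t := by
  unfold logXi
  by_cases htop : Xi (box L) μ t = ⊤
  · rw [htop]
    simp
  · apply Real.log_nonneg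
    have h1 := (ENNReal.toReal_le_toReal ENNReal.one_ne_top htop).2 (one_le_Xi (box L) μ t)
    rw [ENNReal.toReal_one] at h1
    exact h1

theorem logXi_le (T : ℝ) : ∃ B : ℝ, 0 ≤ B ∧ ∀ t : ℕ → ℝ, Adm t → ∑' n, t n ≤ T →
    ∀ μ L : ℝ, 0 ≤ L → logXi L μ t ≤ Real.exp (μ + B) * L ^ 3 := by
  obtain ⟨B, hB0, hB⟩ := Xi_le T
  refine ⟨B, hB0, ?_⟩
  intro t ht hT μ L hL
  have h := hB t ht hT μ L hL
  have htop : Xi (box L) μ t ≠ ⊤ := ne_top_of_le_ne_top ENNReal.ofReal_ne_top h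
  have h1 : (1 : ℝ) ≤ (Xi (box L) μ t).toReal := by
    have h1 := (ENNReal.toReal_le_toReal ENNReal.one_ne_top htop).2 (one_le_Xi (box L) μ t)
    rw [ENNReal.toReal_one] at h1
    exact h1
  have h2 : (Xi (box L) μ t).toReal ≤ Real.exp (Real.exp (μ + B) * L ^ 3) :=
    ENNReal.toReal_le_of_le_ofReal (Real.exp_pos _).le h
  unfold logXi
  calc Real.log (Xi (box L) μ t).toReal
      ≤ Real.log (Real.exp (Real.exp (μ + B) * L ^ 3)) := Real.log_le_log (by linarith) h2
    _ = Real.exp (μ + B) * L ^ 3 := Real.log_exp _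

end Vale.Agent.H96.P171
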