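import Mathlib
import Vale.Agent.H96.P171.Defs
import Vale.Agent.H96.P171.Meas
import Vale.Agent.H96.P171.Bounds
import Vale.Agent.H96.P171.Energy.Basic

/-!
# P171 moonshot, step (2): convexity and monotonicity of log Xi

Hoelder (`gInt_holder` with two factors): the exponent `μ N - E_t` is affine in `(μ,t)`. Monotone in `t` and in `L` pointwise.
Paper proof: `Vale/Agent/H96/P171/PLAN.md`.
-/

open MeasureTheory
open scoped ENNReal

namespace Vale.Agent.H96.P171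

/-- A convex combination of admissible parameters is admissible. -/
theorem convex_adm (t₁ t₂ : ℕ → ℝ) (h₁ : Adm t₁) (h₂ : Adm t₂) (a b : ℝ) (ha : 0 ≤ a)
    (hb : 0 ≤ b) : Adm (fun n => a * t₁ n + b * t₂ n) :=
  ⟨fun n => add_nonneg (mul_nonneg ha (h₁.1 n)) (mul_nonneg hb (h₂.1 n)),
    (h₁.2.mul_left a).add (h₂.2.mul_left b)⟩

/-- The energy is affine in the parameter. -/
theorem convex_En (t₁ t₂ : ℕ → ℝ) (h₁ : Adm t₁) (h₂ : Adm t₂) (a b : ℝ) (ha : 0 ≤ a)
    (hb : 0 ≤ b) (hab : a + b = 1) (l : List E3) :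
    En (fun n => a * t₁ n + b * t₂ n) l = a * En t₁ l + b * En t₂ l := by
  rw [En_eq _ (convex_adm t₁ t₂ h₁ h₂ a b ha hb) l, En_eq t₁ h₁ l, En_eq t₂ h₂ l]
  have s₁ := summable_t_Wn t₁ h₁ l
  have s₂ := summable_t_Wn t₂ h₂ l
  have e : (fun n => (a * t₁ n + b * t₂ n) * Wn n l)
      = fun n => a * (t₁ n * Wn n l) + b * (t₂ n * Wn n l) := by
    funext n
    ring
  rw [e, (s₁.mul_left a).tsum_add (s₂.mul_left b), tsum_mul_left, tsum_mul_left]
  have hE : Ecore l = a * Ecore l + b * Ecore l := by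
    rw [← add_mul, hab, one_mul]
  linear_combination hE

/-- The Boltzmann weight of a convex combination is the weighted geometric mean. -/
theorem convex_bw (μ₁ μ₂ : ℝ) (t₁ t₂ : ℕ → ℝ) (h₁ : Adm t₁) (h₂ : Adm t₂) (a b : ℝ)
    (ha : 0 ≤ a) (hb : 0 ≤ b) (hab : a + b = 1) (l : List E3) :
    bw (a * μ₁ + b * μ₂) (fun n => a * t₁ n + b * t₂ n) l
      = bw μ₁ t₁ l ^ a * bw μ₂ t₂ l ^ b := by
  unfold bw
  rw [convex_En t₁ t₂ h₁ h₂ a b ha hb hab l,
    ENNReal.ofReal_rpow_of_pos (Real.exp_pos _), ENNReal.ofReal_rpow_of_pos (Real.exp_pos _),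
    ← ENNReal.ofReal_mul (Real.rpow_nonneg (Real.exp_pos _).le _),
    ← Real.exp_mul, ← Real.exp_mul, ← Real.exp_add]
  congr 2
  ring

/-- Positivity of the real value of the partition function of a box. -/
theorem convex_toReal_pos (t : ℕ → ℝ) (h : Adm t) (μ L : ℝ) (hL : 0 ≤ L) :
    0 < (Xi (box L) μ t).toReal :=
  ENNReal.toReal_pos (fun h0 => by
    have h1 := one_le_Xi (box L) μ t
    rw [h0] at h1
    exact absurd h1 (by norm_num)) (Xi_ne_top t h μ L hL)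

theorem logXi_convex (L : ℝ) (hL : 0 ≤ L) (μ₁ μ₂ : ℝ) (t₁ t₂ : ℕ → ℝ) (h₁ : Adm t₁)
    (h₂ : Adm t₂) (a b : ℝ) (ha : 0 ≤ a) (hb : 0 ≤ b) (hab : a + b = 1) :
    logXi L (a * μ₁ + b * μ₂) (fun n => a * t₁ n + b * t₂ n)
      ≤ a * logXi L μ₁ t₁ + b * logXi L μ₂ t₂ := by
  have hadm := convex_adm t₁ t₂ h₁ h₂ a b ha hb
  have hpos := convex_toReal_pos _ hadm (a * μ₁ + b * μ₂) L hL
  have hpos₁ := convex_toReal_pos t₁ h₁ μ₁ L hL
  have hpos₂ := convex_toReal_pos t₂ h₂ μ₂ L hL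
  have hne₁ := Xi_ne_top t₁ h₁ μ₁ L hL
  have hne₂ := Xi_ne_top t₂ h₂ μ₂ L hL
  -- Hoelder with two factors
  have hH : Xi (box L) (a * μ₁ + b * μ₂) (fun n => a * t₁ n + b * t₂ n)
      ≤ Xi (box L) μ₁ t₁ ^ a * Xi (box L) μ₂ t₂ ^ b := by
    have key := gInt_holder (Finset.univ : Finset Bool) (box L) (measurableSet_box L)
      (fun i => if i then bw μ₁ t₁ else bw μ₂ t₂)
      (fun i _ => by
        cases i
        · simpa using LMeas_bw μ₂ t₂ h₂
        · simpa using LMeas_bw μ₁ t₁ h₁)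
      (fun i => if i then a else b)
      (fun i _ => by
        cases i
        · simpa using hb
        · simpa using ha)
      (by
        rw [Fintype.sum_bool]
        simpa using hab)
    simp only [Fintype.prod_bool, if_true, Bool.false_eq_true, if_false] at key
    unfold Xi
    have e : bw (a * μ₁ + b * μ₂) (fun n => a * t₁ n + b * t₂ n)
        = fun l => bw μ₁ t₁ l ^ a * bw μ₂ t₂ l ^ b := by
      funext l
      exact convex_bw μ₁ μ₂ t₁ t₂ h₁ h₂ a b ha hb hab l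
    rw [e]
    exact key
  have hfin : Xi (box L) μ₁ t₁ ^ a * Xi (box L) μ₂ t₂ ^ b ≠ ⊤ :=
    ENNReal.mul_ne_top (ENNReal.rpow_ne_top_of_nonneg ha hne₁)
      (ENNReal.rpow_ne_top_of_nonneg hb hne₂)
  have hreal : (Xi (box L) (a * μ₁ + b * μ₂) (fun n => a * t₁ n + b * t₂ n)).toReal
      ≤ (Xi (box L) μ₁ t₁).toReal ^ a * (Xi (box L) μ₂ t₂).toReal ^ b := by
    have h := ENNReal.toReal_mono hfin hH
    rwa [ENNReal.toReal_mul, ← ENNReal.toReal_rpow, ← ENNReal.toReal_rpow] at h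
  unfold logXi
  calc Real.log (Xi (box L) (a * μ₁ + b * μ₂) (fun n => a * t₁ n + b * t₂ n)).toReal
      ≤ Real.log ((Xi (box L) μ₁ t₁).toReal ^ a * (Xi (box L) μ₂ t₂).toReal ^ b) :=
        Real.log_le_log hpos hreal
    _ = a * Real.log (Xi (box L) μ₁ t₁).toReal + b * Real.log (Xi (box L) μ₂ t₂).toReal := by
        rw [Real.log_mul (Real.rpow_pos_of_pos hpos₁ a).ne' (Real.rpow_pos_of_pos hpos₂ b).ne',
          Real.log_rpow hpos₁, Real.log_rpow hpos₂]

theorem logXi_mono (L : ℝ) (hL : 0 ≤ L) (μ : ℝ) (t t' : ℕ → ℝ) (h : Adm t) (h' : Adm t')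
    (hle : ∀ n, t n ≤ t' n) : logXi L μ t ≤ logXi L μ t' := by
  have hX : Xi (box L) μ t ≤ Xi (box L) μ t' := by
    unfold Xi
    refine gInt_mono_fun (box L) _ _ (fun l _ _ => ?_)
    unfold bw
    refine ENNReal.ofReal_le_ofReal (Real.exp_le_exp.2 ?_)
    have hE : En t' l ≤ En t l := by
      rw [En_eq t h l, En_eq t' h' l]
      have hs : ∑' n, t n * Wn n l ≤ ∑' n, t' n * Wn n l :=
        (summable_t_Wn t h l).tsum_le_tsum
          (fun n => mul_le_mul_of_nonneg_right (hle n) (Wn_nonneg n l)) (summable_t_Wn t' h' l)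
      linarith
    linarith
  unfold logXi
  exact Real.log_le_log (convex_toReal_pos t h μ L hL)
    (ENNReal.toReal_mono (Xi_ne_top t' h' μ L hL) hX)

theorem logXi_mono_L (L L' : ℝ) (hL : 0 ≤ L) (hLL : L ≤ L') (μ : ℝ) (t : ℕ → ℝ) (h : Adm t) :
    logXi L μ t ≤ logXi L' μ t := by
  have hsub : box L ⊆ box L' := fun p hp i => ⟨(hp i).1, (hp i).2.trans hLL⟩
  have hX : Xi (box L) μ t ≤ Xi (box L') μ t := gInt_mono_set (box L) (box L') hsub _
  unfold logXi
  exact Real.log_le_log (convex_toReal_pos t h μ L hL)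
    (ENNReal.toReal_mono (Xi_ne_top t h μ L' (hL.trans hLL)) hX)

end Vale.Agent.H96.P171
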