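import Mathlib
import Vale.Agent.H96.P171.Defs
import Vale.Agent.H96.P171.Meas
import Vale.Agent.H96.P171.Bounds
import Vale.Agent.H96.P171.Energy.Basic
import Vale.Agent.H96.P171.Energy.Split

/-!
# P171 moonshot, step (3a): superadditivity

Cells at mutual distance `≥ 1` inside a region: `Phi t ≤ 0` on `[1,∞)`, so `E_t(x) ≤ ∑ E_t(x|cell)` (`lsum_le_sum_rest`), then `gInt_iUnion`, `gInt_mono_set`, `gInt_translate`.
Paper proof: `Vale/Agent/H96/P171/PLAN.md`.
-/

open MeasureTheory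
open scoped ENNReal

namespace Vale.Agent.H96.P171

/-- The shift vector `(s+1) v` of the cell with index `v`. -/
noncomputable def superaddShift (s : ℝ) (k : ℕ) (v : Fin 3 → Fin k) : E3 :=
  WithLp.toLp 2 (fun j : Fin 3 => (s + 1) * (((v j : ℕ) : ℝ)))

theorem superadd_shift_apply (s : ℝ) (k : ℕ) (v : Fin 3 → Fin k) (j : Fin 3) :
    superaddShift s k v j = (s + 1) * (((v j : ℕ) : ℝ)) := rfl

/-- The cell with index `v`: the cube of side `s` translated by `(s+1) v`. -/
noncomputable def superaddCell (s : ℝ) (k : ℕ) (v : Fin 3 → Fin k) : Set E3 :=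
  (fun p => p + superaddShift s k v) '' box s

theorem superadd_coord_le_dist (x y : E3) (j : Fin 3) : |x j - y j| ≤ dist x y := by
  have h := PiLp.norm_apply_le (x - y) j
  rw [dist_eq_norm]
  simpa [Real.norm_eq_abs] using h

/-- Points of different cells are at distance at least `1`. -/
theorem superadd_dist (s : ℝ) (hs : 0 ≤ s) (k : ℕ) (v w : Fin 3 → Fin k) (hvw : v ≠ w)
    (a b : E3) (ha : a ∈ superaddCell s k v) (hb : b ∈ superaddCell s k w) : 1 ≤ dist a b := by
  obtain ⟨p, hp, rfl⟩ := ha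
  obtain ⟨q, hq, rfl⟩ := hb
  have hex : ∃ j, v j ≠ w j := by
    by_contra hcon
    apply hvw
    funext j
    by_contra hj
    exact hcon ⟨j, hj⟩
  obtain ⟨j, hj⟩ := hex
  have hjn : ((v j : ℕ) : ℝ) ≠ ((w j : ℕ) : ℝ) := by
    intro h
    apply hj
    exact Fin.ext (by exact_mod_cast h)
  have habs : (1 : ℝ) ≤ |((v j : ℕ) : ℝ) - ((w j : ℕ) : ℝ)| := by
    rcases Nat.lt_or_ge (v j : ℕ) (w j : ℕ) with h | h
    · have h1 : ((v j : ℕ) : ℝ) + 1 ≤ ((w j : ℕ) : ℝ) := by exact_mod_cast h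
      rw [abs_of_nonpos (by linarith)]
      linarith
    · have h2 : (w j : ℕ) ≠ (v j : ℕ) := fun h' => hjn (by rw [h'])
      have h3 : (w j : ℕ) < (v j : ℕ) := lt_of_le_of_ne h h2
      have h1 : ((w j : ℕ) : ℝ) + 1 ≤ ((v j : ℕ) : ℝ) := by exact_mod_cast h3
      rw [abs_of_nonneg (by linarith)]
      linarith
  have hpj := hp j
  have hqj := hq j
  have hcoord := superadd_coord_le_dist (p + superaddShift s k v) (q + superaddShift s k w) j
  rw [PiLp.add_apply, PiLp.add_apply, superadd_shift_apply, superadd_shift_apply] at hcoord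
  refine le_trans ?_ hcoord
  have e : p j + (s + 1) * ((v j : ℕ) : ℝ) - (q j + (s + 1) * ((w j : ℕ) : ℝ)) =
      (p j - q j) + (s + 1) * (((v j : ℕ) : ℝ) - ((w j : ℕ) : ℝ)) := by ring
  rw [e]
  have hpq : |p j - q j| ≤ s := by
    rw [abs_le]
    constructor <;> linarith [hpj.1, hpj.2, hqj.1, hqj.2]
  have hmul : s + 1 ≤ |(s + 1) * (((v j : ℕ) : ℝ) - ((w j : ℕ) : ℝ))| := by
    rw [abs_mul, abs_of_nonneg (by linarith : (0 : ℝ) ≤ s + 1)]
    nlinarith
  have htri : |(s + 1) * (((v j : ℕ) : ℝ) - ((w j : ℕ) : ℝ))| ≤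
      |(p j - q j) + (s + 1) * (((v j : ℕ) : ℝ) - ((w j : ℕ) : ℝ))| + |p j - q j| := by
    have h := abs_sub (((p j - q j) + (s + 1) * (((v j : ℕ) : ℝ) - ((w j : ℕ) : ℝ)))) (p j - q j)
    have e2 : (p j - q j) + (s + 1) * (((v j : ℕ) : ℝ) - ((w j : ℕ) : ℝ)) - (p j - q j) =
        (s + 1) * (((v j : ℕ) : ℝ) - ((w j : ℕ) : ℝ)) := by ring
    rw [e2] at h
    exact h
  linarith

theorem superadd_disjoint (s : ℝ) (hs : 0 ≤ s) (k : ℕ) (v w : Fin 3 → Fin k) (hvw : v ≠ w) :
    Disjoint (superaddCell s k v) (superaddCell s k w) := by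
  rw [Set.disjoint_left]
  intro a ha hb
  have h := superadd_dist s hs k v w hvw a a ha hb
  rw [dist_self] at h
  linarith

theorem superadd_measurable (s : ℝ) (k : ℕ) (v : Fin 3 → Fin k) :
    MeasurableSet (superaddCell s k v) := by
  unfold superaddCell
  rw [Set.image_add_right]
  exact (measurable_add_const _) (measurableSet_box s)

theorem superadd_subset (s L : ℝ) (hs : 0 ≤ s) (k : ℕ)
    (hk : ((k : ℝ) - 1) * (s + 1) + s ≤ L) :
    (⋃ v : Fin 3 → Fin k, superaddCell s k v) ⊆ box L := by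
  intro a ha
  obtain ⟨v, hv⟩ := Set.mem_iUnion.1 ha
  obtain ⟨p, hp, rfl⟩ := hv
  intro j
  rw [PiLp.add_apply, superadd_shift_apply]
  have hpj := hp j
  have hv0 : (0 : ℝ) ≤ ((v j : ℕ) : ℝ) := Nat.cast_nonneg _
  have hv1 : ((v j : ℕ) : ℝ) + 1 ≤ (k : ℝ) := by exact_mod_cast (v j).isLt
  constructor
  · nlinarith [hpj.1]
  · nlinarith [hpj.2]

/-- The pointwise inequality between the Boltzmann weights. -/
theorem superadd_weight (t : ℕ → ℝ) (h : Adm t) (μ : ℝ) (s : ℝ) (hs : 0 ≤ s) (k : ℕ)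
    (l : List E3) (hl : ∀ p ∈ l, p ∈ ⋃ v : Fin 3 → Fin k, superaddCell s k v) :
    ∏ v : Fin 3 → Fin k, bw μ t (rest (superaddCell s k v) l) ≤ bw μ t l := by
  have hd : ∀ v w : Fin 3 → Fin k, v ≠ w →
      Disjoint (superaddCell s k v) (superaddCell s k w) :=
    fun v w hvw => superadd_disjoint s hs k v w hvw
  have hl' : ∀ p ∈ l, ∃ v : Fin 3 → Fin k, p ∈ superaddCell s k v :=
    fun p hp => Set.mem_iUnion.1 (hl p hp)
  have hlen := sum_length_rest (fun v : Fin 3 → Fin k => superaddCell s k v) hd l hl'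
  have hen := lsum_le_sum_rest (fun v : Fin 3 → Fin k => superaddCell s k v) hd
    (fun a b => Phi t (dist a b))
    (fun v w hvw a ha b hb => Phi_nonpos t h _ (superadd_dist s hs k v w hvw a b ha hb)) l hl'
  have hlenR : (∑ v : Fin 3 → Fin k, ((rest (superaddCell s k v) l).length : ℝ)) =
      (l.length : ℝ) := by
    rw [← hlen]
    push_cast
    rfl
  unfold bw
  rw [← ENNReal.ofReal_prod_of_nonneg (fun v _ => (Real.exp_pos _).le), ← Real.exp_sum]
  apply ENNReal.ofReal_le_ofReal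
  apply Real.exp_le_exp.2
  rw [Finset.sum_sub_distrib, ← Finset.mul_sum, hlenR]
  have hen' : En t l ≤ ∑ v : Fin 3 → Fin k, En t (rest (superaddCell s k v) l) := hen
  linarith

/-- `k^3` translates of the cube of side `s`, with corridors of width `1`, fit into the cube of side `L`. -/
theorem logXi_superadd (t : ℕ → ℝ) (h : Adm t) (μ : ℝ) (s L : ℝ) (hs : 0 ≤ s) (k : ℕ)
    (hk : ((k : ℝ) - 1) * (s + 1) + s ≤ L) :
    (k : ℝ) ^ 3 * logXi s μ t ≤ logXi L μ t := by
  rcases Nat.eq_zero_or_pos k with hk0 | hkpos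
  · subst hk0
    have := logXi_nonneg L μ t
    simpa using this
  have hk1 : (1 : ℝ) ≤ (k : ℝ) := by exact_mod_cast hkpos
  have hL : 0 ≤ L := by nlinarith
  have hd : ∀ v w : Fin 3 → Fin k, v ≠ w →
      Disjoint (superaddCell s k v) (superaddCell s k w) :=
    fun v w hvw => superadd_disjoint s hs k v w hvw
  -- the chain of inequalities between the partition functions
  have hchain : (Xi (box s) μ t) ^ (k ^ 3) ≤ Xi (box L) μ t := by
    have h1 : (Xi (box s) μ t) ^ (k ^ 3) =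
        ∏ v : Fin 3 → Fin k, gInt (superaddCell s k v) (bw μ t) := by
      have hc : ∀ v : Fin 3 → Fin k, gInt (superaddCell s k v) (bw μ t) = Xi (box s) μ t :=
        fun v => gInt_translate (box s) (superaddShift s k v) (bw μ t)
          (fun l => bw_map_add μ t (superaddShift s k v) l)
      rw [Finset.prod_congr rfl (fun v _ => hc v), Finset.prod_const, Finset.card_univ]
      congr 1
      simp
    have h2 := gInt_iUnion (fun v : Fin 3 → Fin k => superaddCell s k v)
      (fun v => superadd_measurable s k v) hd (fun _ => bw μ t) (fun _ => LMeas_bw μ t h)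
    have h3 : gInt (⋃ v : Fin 3 → Fin k, superaddCell s k v)
        (fun l => ∏ v : Fin 3 → Fin k, bw μ t (rest (superaddCell s k v) l)) ≤
        gInt (⋃ v : Fin 3 → Fin k, superaddCell s k v) (bw μ t) :=
      gInt_mono_fun _ _ _ (fun l _ hl => superadd_weight t h μ s hs k l hl)
    have h4 : gInt (⋃ v : Fin 3 → Fin k, superaddCell s k v) (bw μ t) ≤ gInt (box L) (bw μ t) :=
      gInt_mono_set _ _ (superadd_subset s L hs k hk) _
    rw [h1, ← h2]
    exact h3.trans h4
  -- logarithms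
  have hXL : Xi (box L) μ t ≠ ⊤ := Xi_ne_top t h μ L hL
  have hXs : Xi (box s) μ t ≠ ⊤ := Xi_ne_top t h μ s hs
  have h1s : (1 : ℝ) ≤ (Xi (box s) μ t).toReal := by
    have := ENNReal.toReal_mono hXs (one_le_Xi (box s) μ t)
    simpa using this
  have hreal : (Xi (box s) μ t).toReal ^ (k ^ 3) ≤ (Xi (box L) μ t).toReal := by
    rw [← ENNReal.toReal_pow]
    exact ENNReal.toReal_mono hXL hchain
  have hpos : 0 < (Xi (box s) μ t).toReal ^ (k ^ 3) := pow_pos (by linarith) _
  have hlog := Real.log_le_log hpos hreal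
  rw [Real.log_pow] at hlog
  unfold logXi
  have hcast : (((k ^ 3 : ℕ)) : ℝ) = (k : ℝ) ^ 3 := by push_cast; rfl
  rw [hcast] at hlog
  exact hlog

end Vale.Agent.H96.P171
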