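import Mathlib
import Vale.Agent.H96.P171.Defs
import Vale.Agent.H96.P171.Bounds
import Vale.Agent.H96.P171.Convex
import Vale.Agent.H96.P171.Superadd
import Vale.Agent.H72.FeketeCube

/-!
# P171 moonshot, step (3b): the thermodynamic limit

From `logXi_superadd`, `logXi_mono_L`, `logXi_nonneg`, `logXi_le`: the limit of `logXi L / L^3` along real `L` exists and equals the supremum `Fp`. Then the properties of `Fp` follow from those of `logXi`.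
Paper proof: `Vale/Agent/H96/P171/PLAN.md`.
-/

open MeasureTheory
open scoped ENNReal

namespace Vale.Agent.H96.P171

/-- Each term of the supremum defining `Fp` is bounded by `exp (μ + B)`. -/
theorem fekete_term_le (B : ℝ) (t : ℕ → ℝ) (μ : ℝ)
    (hB : ∀ L : ℝ, 0 ≤ L → logXi L μ t ≤ Real.exp (μ + B) * L ^ 3) (ℓ : ℕ) :
    logXi ((ℓ : ℝ) + 1) μ t / ((ℓ : ℝ) + 2) ^ 3 ≤ Real.exp (μ + B) := by
  have h1 : (0 : ℝ) ≤ (ℓ : ℝ) := Nat.cast_nonneg ℓ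
  have h2 := hB ((ℓ : ℝ) + 1) (by linarith)
  have h3 : (0 : ℝ) < ((ℓ : ℝ) + 2) ^ 3 := by positivity
  rw [div_le_iff₀ h3]
  have h4 : ((ℓ : ℝ) + 1) ^ 3 ≤ ((ℓ : ℝ) + 2) ^ 3 :=
    pow_le_pow_left₀ (by linarith) (by linarith) 3
  have h5 : 0 < Real.exp (μ + B) := Real.exp_pos _
  nlinarith

theorem Fp_bdd (t : ℕ → ℝ) (h : Adm t) (μ : ℝ) :
    BddAbove (Set.range fun ℓ : ℕ => logXi ((ℓ : ℝ) + 1) μ t / ((ℓ : ℝ) + 2) ^ 3) := by
  obtain ⟨B, _, hB⟩ := logXi_le (∑' n, t n)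
  refine ⟨Real.exp (μ + B), ?_⟩
  rintro y ⟨ℓ, rfl⟩
  exact fekete_term_le B t μ (fun L hL => hB t h le_rfl μ L hL) ℓ

theorem logXi_le_Fp (t : ℕ → ℝ) (h : Adm t) (μ : ℝ) (ℓ : ℕ) :
    logXi ((ℓ : ℝ) + 1) μ t ≤ ((ℓ : ℝ) + 2) ^ 3 * Fp μ t := by
  have h1 : logXi ((ℓ : ℝ) + 1) μ t / ((ℓ : ℝ) + 2) ^ 3 ≤ Fp μ t :=
    le_ciSup (Fp_bdd t h μ) ℓ
  have h3 : (0 : ℝ) < ((ℓ : ℝ) + 2) ^ 3 := by positivity
  rw [div_le_iff₀ h3] at h1
  linarith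

theorem Fp_nonneg (t : ℕ → ℝ) (h : Adm t) (μ : ℝ) : 0 ≤ Fp μ t := by
  have h1 : logXi (((0 : ℕ) : ℝ) + 1) μ t / (((0 : ℕ) : ℝ) + 2) ^ 3 ≤ Fp μ t :=
    le_ciSup (Fp_bdd t h μ) 0
  have h2 : 0 ≤ logXi (((0 : ℕ) : ℝ) + 1) μ t / (((0 : ℕ) : ℝ) + 2) ^ 3 :=
    div_nonneg (logXi_nonneg _ _ _) (by positivity)
  linarith

/-- The pressure exists as a limit along real `L`. -/
theorem tendsto_pressure (t : ℕ → ℝ) (h : Adm t) (μ : ℝ) :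
    Filter.Tendsto (fun L : ℝ => logXi L μ t / L ^ 3) Filter.atTop (nhds (Fp μ t)) := by
  obtain ⟨B, _, hB⟩ := logXi_le (∑' n, t n)
  obtain ⟨F, hF, hle, _, _⟩ := Vale.Agent.H72.fekete_cube (fun L => logXi L μ t)
    (Real.exp (μ + B))
    (fun L _ => logXi_nonneg L μ t)
    (fun a b ha hab => logXi_mono_L a b ha.le hab μ t h)
    (fun l k hl _ => by
      apply logXi_superadd t h μ l ((k : ℝ) * (l + 1)) hl.le k
      nlinarith)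
    (fun L hL => hB t h le_rfl μ L hL.le)
  have hFp : Fp μ t = F := by
    apply le_antisymm
    · apply ciSup_le
      intro ℓ
      have h1 := hle ((ℓ : ℝ) + 1) (by positivity)
      have h2 : (ℓ : ℝ) + 1 + 1 = (ℓ : ℝ) + 2 := by ring
      rw [h2] at h1
      exact h1
    · -- `F` is the limit along `ℓ + 1`
      have hcast : Filter.Tendsto (fun ℓ : ℕ => (ℓ : ℝ) + 1) Filter.atTop Filter.atTop :=
        Filter.tendsto_atTop_add_const_right _ _ tendsto_natCast_atTop_atTop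
      have h1 : Filter.Tendsto (fun ℓ : ℕ => logXi ((ℓ : ℝ) + 1) μ t / ((ℓ : ℝ) + 1) ^ 3)
          Filter.atTop (nhds F) := hF.comp hcast
      have h2 : Filter.Tendsto (fun ℓ : ℕ => Fp μ t * (1 + 1 / ((ℓ : ℝ) + 1)) ^ 3)
          Filter.atTop (nhds (Fp μ t)) := by
        have h3 : Filter.Tendsto (fun ℓ : ℕ => 1 / ((ℓ : ℝ) + 1)) Filter.atTop (nhds 0) :=
          tendsto_one_div_add_atTop_nhds_zero_nat
        have h4 : Filter.Tendsto (fun ℓ : ℕ => Fp μ t * (1 + 1 / ((ℓ : ℝ) + 1)) ^ 3)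
            Filter.atTop (nhds (Fp μ t * (1 + 0) ^ 3)) :=
          ((h3.const_add 1).pow 3).const_mul _
        simpa using h4
      refine le_of_tendsto_of_tendsto' h1 h2 ?_
      intro ℓ
      have hl1 : (0 : ℝ) < (ℓ : ℝ) + 1 := by positivity
      have hl2 : (0 : ℝ) < (ℓ : ℝ) + 2 := by positivity
      have h5 : logXi ((ℓ : ℝ) + 1) μ t / ((ℓ : ℝ) + 2) ^ 3 ≤ Fp μ t :=
        le_ciSup (Fp_bdd t h μ) ℓ
      have h6 : logXi ((ℓ : ℝ) + 1) μ t / ((ℓ : ℝ) + 1) ^ 3 =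
          logXi ((ℓ : ℝ) + 1) μ t / ((ℓ : ℝ) + 2) ^ 3 * (1 + 1 / ((ℓ : ℝ) + 1)) ^ 3 := by
        have : 1 + 1 / ((ℓ : ℝ) + 1) = ((ℓ : ℝ) + 2) / ((ℓ : ℝ) + 1) := by
          field_simp
          ring
        rw [this, div_pow]
        field_simp
      rw [h6]
      apply mul_le_mul_of_nonneg_right h5
      positivity
  rw [hFp]
  exact hF

theorem Fp_le (T : ℝ) : ∃ B : ℝ, 0 ≤ B ∧ ∀ t : ℕ → ℝ, Adm t → ∑' n, t n ≤ T →
    ∀ μ : ℝ, Fp μ t ≤ Real.exp (μ + B) := by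
  obtain ⟨B, hB0, hB⟩ := logXi_le T
  refine ⟨B, hB0, ?_⟩
  intro t h hT μ
  apply ciSup_le
  intro ℓ
  exact fekete_term_le B t μ (fun L hL => hB t h hT μ L hL) ℓ

/-- Admissibility of a convex combination. -/
theorem fekete_adm_comb (t₁ t₂ : ℕ → ℝ) (h₁ : Adm t₁) (h₂ : Adm t₂) (a b : ℝ)
    (ha : 0 ≤ a) (hb : 0 ≤ b) : Adm (fun n => a * t₁ n + b * t₂ n) := by
  refine ⟨fun n => ?_, ?_⟩
  · have := h₁.1 n
    have := h₂.1 n
    positivity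
  · exact (h₁.2.mul_left a).add (h₂.2.mul_left b)

theorem Fp_convex (μ₁ μ₂ : ℝ) (t₁ t₂ : ℕ → ℝ) (h₁ : Adm t₁) (h₂ : Adm t₂) (a b : ℝ)
    (ha : 0 ≤ a) (hb : 0 ≤ b) (hab : a + b = 1) :
    Fp (a * μ₁ + b * μ₂) (fun n => a * t₁ n + b * t₂ n) ≤ a * Fp μ₁ t₁ + b * Fp μ₂ t₂ := by
  have h3 := fekete_adm_comb t₁ t₂ h₁ h₂ a b ha hb
  have hl := tendsto_pressure (fun n => a * t₁ n + b * t₂ n) h3 (a * μ₁ + b * μ₂)
  have hr : Filter.Tendsto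
      (fun L : ℝ => a * (logXi L μ₁ t₁ / L ^ 3) + b * (logXi L μ₂ t₂ / L ^ 3))
      Filter.atTop (nhds (a * Fp μ₁ t₁ + b * Fp μ₂ t₂)) :=
    ((tendsto_pressure t₁ h₁ μ₁).const_mul a).add ((tendsto_pressure t₂ h₂ μ₂).const_mul b)
  refine le_of_tendsto_of_tendsto hl hr ?_
  filter_upwards [Filter.eventually_gt_atTop (0 : ℝ)] with L hL
  have h4 := logXi_convex L hL.le μ₁ μ₂ t₁ t₂ h₁ h₂ a b ha hb hab
  have hL3 : (0 : ℝ) < L ^ 3 := by positivity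
  have h5 : a * (logXi L μ₁ t₁ / L ^ 3) + b * (logXi L μ₂ t₂ / L ^ 3) =
      (a * logXi L μ₁ t₁ + b * logXi L μ₂ t₂) / L ^ 3 := by ring
  rw [h5]
  exact div_le_div_of_nonneg_right h4 hL3.le

theorem Fp_mono (μ : ℝ) (t t' : ℕ → ℝ) (h : Adm t) (h' : Adm t') (hle : ∀ n, t n ≤ t' n) :
    Fp μ t ≤ Fp μ t' := by
  refine le_of_tendsto_of_tendsto (tendsto_pressure t h μ) (tendsto_pressure t' h' μ) ?_
  filter_upwards [Filter.eventually_gt_atTop (0 : ℝ)] with L hL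
  have h4 := logXi_mono L hL.le μ t t' h h' hle
  have hL3 : (0 : ℝ) < L ^ 3 := by positivity
  exact div_le_div_of_nonneg_right h4 hL3.le

end Vale.Agent.H96.P171
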