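import Mathlib
import Vale.Agent.H96.P171.Defs
import Vale.Agent.H96.P171.Meas
import Vale.Agent.H96.P171.Stab
import Vale.Agent.H96.P171.Bounds
import Vale.Agent.H96.P171.Fekete

/-!
# P171 moonshot, quadratic growth bound of the pressure (from superstability)

`Xi(box K) ≤ ∑_N e^((μ+C) N - A N^2/K^3) K^(3N)/N! ≤ exp(K^3 (1 + (μ+C)_+^2/(4A)))`.
Paper proof: `Vale/Agent/H96/P171/PLAN.md`.
-/

open MeasureTheory
open scoped ENNReal

namespace Vale.Agent.H96.P171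

/-- The integral of a constant weight over `A^k`. -/
theorem growth_cInt_const (A : Set E3) (hA : MeasurableSet A) (c : ℝ≥0∞) (k : ℕ) :
    cInt A (fun _ => c) k = c * volume A ^ k := by
  unfold cInt
  have hS : {x : Fin k → E3 | ∀ i, x i ∈ A} = Set.pi Set.univ (fun _ : Fin k => A) := by
    ext x
    simp
  rw [hS, lintegral_indicator_const (MeasurableSet.univ_pi (fun _ => hA)), volume_pi_pi]
  simp only [Finset.prod_const, Finset.card_univ, Fintype.card_fin]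

/-- The exponential series in the extended nonnegative reals. -/
theorem growth_exp_series (x : ℝ) (hx : 0 ≤ x) :
    ∑' k : ℕ, ENNReal.ofReal x ^ k / (k.factorial : ℝ≥0∞) = ENNReal.ofReal (Real.exp x) := by
  have h : HasSum (fun n : ℕ => x ^ n / (n.factorial : ℝ)) (Real.exp x) := by
    rw [Real.exp_eq_exp_ℝ]
    exact NormedSpace.expSeries_div_hasSum_exp x
  rw [← h.tsum_eq, ENNReal.ofReal_tsum_of_nonneg (fun n => by positivity) h.summable]
  refine tsum_congr (fun k => ?_)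
  rw [ENNReal.ofReal_div_of_pos (by positivity), ENNReal.ofReal_pow hx, ENNReal.ofReal_natCast]

/-- The elementary inequality `a N - A N^2 / V ≤ a^2 V / (4 A)`. -/
theorem growth_quad (a A N V : ℝ) (hA : 0 < A) (hV : 0 < V) :
    a * N - A * N ^ 2 / V ≤ a ^ 2 * V / (4 * A) := by
  have h : a ^ 2 * V / (4 * A) - (a * N - A * N ^ 2 / V) =
      (2 * A * N - a * V) ^ 2 / (4 * A * V) := by
    field_simp
    ring
  have h2 : 0 ≤ (2 * A * N - a * V) ^ 2 / (4 * A * V) := by positivity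
  linarith

/-- Upper bound for the partition function of a cube of integer side, from superstability. -/
theorem growth_Xi_le (T A : ℝ) (hA : 0 < A) (C : ℝ)
    (hC : ∀ t : ℕ → ℝ, Adm t → ∑' n, t n ≤ T →
      ∀ (K : ℕ) (l : List E3), l.Nodup → (∀ p ∈ l, p ∈ box K) →
        A * (l.length : ℝ) ^ 2 / (K : ℝ) ^ 3 - C * (l.length : ℝ) ≤ En t l)
    (t : ℕ → ℝ) (ht : Adm t) (hT : ∑' n, t n ≤ T) (μ : ℝ) (K : ℕ) (hK : 0 < K) :
    Xi (box K) μ t ≤
      ENNReal.ofReal (Real.exp ((1 + (max (μ + C) 0) ^ 2 / (4 * A)) * (K : ℝ) ^ 3)) := by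
  obtain ⟨q, hq⟩ : ∃ q : ℝ, q = (max (μ + C) 0) ^ 2 / (4 * A) := ⟨_, rfl⟩
  rw [← hq]
  have hK3 : (0 : ℝ) < (K : ℝ) ^ 3 := by positivity
  have h1 : Xi (box K) μ t ≤
      gInt (box K) (fun _ => ENNReal.ofReal (Real.exp (q * (K : ℝ) ^ 3))) := by
    unfold Xi
    apply gInt_mono_fun
    intro l hl hmem
    unfold bw
    apply ENNReal.ofReal_le_ofReal
    apply Real.exp_le_exp.2
    have h2 := hC t ht hT K l hl hmem
    have h3 := growth_quad (max (μ + C) 0) A (l.length : ℝ) ((K : ℝ) ^ 3) hA hK3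
    have h4 : (μ + C) * (l.length : ℝ) ≤ max (μ + C) 0 * (l.length : ℝ) :=
      mul_le_mul_of_nonneg_right (le_max_left _ _) (Nat.cast_nonneg _)
    have h5 : max (μ + C) 0 ^ 2 * (K : ℝ) ^ 3 / (4 * A) = q * (K : ℝ) ^ 3 := by
      rw [hq]
      ring
    linarith
  have h2 : gInt (box K) (fun _ => ENNReal.ofReal (Real.exp (q * (K : ℝ) ^ 3))) =
      ENNReal.ofReal (Real.exp (q * (K : ℝ) ^ 3)) * ENNReal.ofReal (Real.exp ((K : ℝ) ^ 3)) := by
    unfold gInt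
    simp_rw [growth_cInt_const (box K) (measurableSet_box K) _,
      volume_box (K : ℝ) (Nat.cast_nonneg K), mul_div_assoc]
    rw [ENNReal.tsum_mul_left, growth_exp_series _ hK3.le]
  rw [h2, ← ENNReal.ofReal_mul (Real.exp_nonneg _), ← Real.exp_add] at h1
  have e : (1 + q) * (K : ℝ) ^ 3 = q * (K : ℝ) ^ 3 + (K : ℝ) ^ 3 := by ring
  rw [e]
  exact h1

theorem growth (T A : ℝ) (hA : 0 < A) : ∃ C : ℝ, ∀ t : ℕ → ℝ, Adm t → ∑' n, t n ≤ T →
    ∀ μ : ℝ, Fp μ t ≤ 1 + (max (μ + C) 0) ^ 2 / (4 * A) := by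
  obtain ⟨C, -, hC⟩ := superstab T A
  refine ⟨C, fun t ht hT μ => ?_⟩
  have hq : 0 ≤ (max (μ + C) 0) ^ 2 / (4 * A) := by positivity
  unfold Fp
  apply ciSup_le
  intro ℓ
  have hX := growth_Xi_le T A hA C hC t ht hT μ (ℓ + 1) (Nat.succ_pos ℓ)
  rw [Nat.cast_add_one] at hX
  have hlog : logXi ((ℓ : ℝ) + 1) μ t ≤
      (1 + (max (μ + C) 0) ^ 2 / (4 * A)) * ((ℓ : ℝ) + 1) ^ 3 := by
    unfold logXi
    have h1 : (Xi (box ((ℓ : ℝ) + 1)) μ t).toReal ≤
        Real.exp ((1 + (max (μ + C) 0) ^ 2 / (4 * A)) * ((ℓ : ℝ) + 1) ^ 3) :=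
      ENNReal.toReal_le_of_le_ofReal (Real.exp_nonneg _) hX
    rcases (ENNReal.toReal_nonneg (a := Xi (box ((ℓ : ℝ) + 1)) μ t)).eq_or_lt with h0 | hpos
    · rw [← h0, Real.log_zero]
      positivity
    · exact (Real.log_le_iff_le_exp hpos).2 h1
  have h3 : ((ℓ : ℝ) + 1) ^ 3 ≤ ((ℓ : ℝ) + 2) ^ 3 :=
    pow_le_pow_left₀ (by positivity) (by linarith) 3
  rw [div_le_iff₀ (by positivity)]
  exact hlog.trans (mul_le_mul_of_nonneg_left h3 (by positivity))

end Vale.Agent.H96.P171
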