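import Mathlib
import Vale.Agent.H96.P171.Setting
import Vale.Agent.H96.P171.Defs
import Vale.Agent.H96.P171.Meas
import Vale.Agent.H96.P171.Stab
import Vale.Agent.H96.P171.Bounds
import Vale.Agent.H96.P171.Energy.Lsum
import Vale.Agent.H96.P171.Energy.Basic

/-!
# P171 moonshot, bridge between the statement-level definitions and the list formalism

The potential `Phi t` has the properties required by the problem, and `grandZ` (Bochner integrals, real `tsum`) equals `Xi` (lintegrals).
Paper proof: `Vale/Agent/H96/P171/PLAN.md`.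
-/

open MeasureTheory
open scoped ENNReal

namespace Vale.Agent.H96.P171

/-! ### Helper lemmas (geometry and measure of the `N`-fold box) -/

/-- The `N`-fold box. -/
abbrev bridge_boxN (L : ℝ) (N : ℕ) : Set (Fin N → E3) := {x : Fin N → E3 | ∀ i, x i ∈ box L}

lemma bridge_boxN_eq_pi (L : ℝ) (N : ℕ) :
    bridge_boxN L N = Set.pi Set.univ (fun _ : Fin N => box L) := by
  ext x
  simp [bridge_boxN]

lemma bridge_isClosed_box (L : ℝ) : IsClosed (box L) := by
  have : box L = ⋂ k : Fin 3, {p : E3 | 0 ≤ p k ∧ p k ≤ L} := by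
    ext p
    simp [box]
  rw [this]
  refine isClosed_iInter (fun k => ?_)
  have hc : Continuous (fun p : E3 => p k) := by fun_prop
  exact (isClosed_le continuous_const hc).inter (isClosed_le hc continuous_const)

lemma bridge_measurableSet_box (L : ℝ) : MeasurableSet (box L) :=
  (bridge_isClosed_box L).measurableSet

lemma bridge_measurableSet_boxN (L : ℝ) (N : ℕ) : MeasurableSet (bridge_boxN L N) := by
  rw [bridge_boxN_eq_pi]
  exact MeasurableSet.univ_pi (fun _ => bridge_measurableSet_box L)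

lemma bridge_isBounded_box (L : ℝ) : Bornology.IsBounded (box L) := by
  refine (Metric.isBounded_closedBall (x := (0 : E3)) (r := 2 * |L|)).subset ?_
  intro p hp
  rw [Metric.mem_closedBall, dist_zero_right, EuclideanSpace.norm_eq]
  refine Real.sqrt_le_iff.mpr ⟨by positivity, ?_⟩
  have h : ∀ k : Fin 3, ‖p k‖ ^ 2 ≤ L ^ 2 := by
    intro k
    obtain ⟨h0, h1⟩ := hp k
    rw [Real.norm_eq_abs, sq_abs]
    nlinarith
  calc ∑ k : Fin 3, ‖p k‖ ^ 2 ≤ ∑ _k : Fin 3, L ^ 2 := Finset.sum_le_sum (fun k _ => h k)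
    _ = 3 * L ^ 2 := by simp
    _ ≤ (2 * |L|) ^ 2 := by
      have : |L| ^ 2 = L ^ 2 := sq_abs L
      nlinarith [sq_nonneg L]

lemma bridge_volume_box_lt_top (L : ℝ) : volume (box L) < ⊤ :=
  (bridge_isBounded_box L).measure_lt_top

lemma bridge_volume_boxN (L : ℝ) (N : ℕ) :
    volume (bridge_boxN L N) = (volume (box L)) ^ N := by
  rw [bridge_boxN_eq_pi, volume_pi, Measure.pi_pi]
  simp

lemma bridge_volume_boxN_lt_top (L : ℝ) (N : ℕ) : volume (bridge_boxN L N) < ⊤ := by
  rw [bridge_volume_boxN]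
  exact ENNReal.pow_lt_top (bridge_volume_box_lt_top L)

/-- Almost every labelled configuration consists of distinct points. -/
theorem bridge_ae_injective (N : ℕ) : ∀ᵐ x : Fin N → E3, Function.Injective x := by
  have hnull : ∀ i j : Fin N, i ≠ j → volume {x : Fin N → E3 | x i = x j} = 0 := by
    intro i j hij
    let S : Submodule ℝ (Fin N → E3) :=
      LinearMap.ker ((LinearMap.proj i : (Fin N → E3) →ₗ[ℝ] E3) - LinearMap.proj j)
    have hS : (S : Set (Fin N → E3)) = {x : Fin N → E3 | x i = x j} := by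
      ext x
      simp [S, sub_eq_zero]
    have hne : S ≠ ⊤ := by
      intro htop
      have hmem : (Function.update (0 : Fin N → E3) i (EuclideanSpace.single 0 (1 : ℝ)))
          ∈ (S : Set (Fin N → E3)) := by
        rw [htop]; trivial
      rw [hS] at hmem
      simp only [Set.mem_ofPred_eq, Function.update_self, Function.update_of_ne hij.symm,
        Pi.zero_apply] at hmem
      have := congrArg (fun v : E3 => v 0) hmem
      simp at this
    rw [← hS]
    exact Measure.addHaar_submodule volume S hne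
  have hunion : {x : Fin N → E3 | ¬ Function.Injective x}
      ⊆ ⋃ i : Fin N, ⋃ j : Fin N, ⋃ _h : i ≠ j, {x : Fin N → E3 | x i = x j} := by
    intro x hx
    simp only [Function.Injective, not_forall] at hx
    obtain ⟨i, j, hxe, hij⟩ := hx
    simp only [Set.mem_iUnion, Set.mem_ofPred_eq]
    exact ⟨i, j, hij, hxe⟩
  have hzero : volume (⋃ i : Fin N, ⋃ j : Fin N, ⋃ _h : i ≠ j, {x : Fin N → E3 | x i = x j})
      = 0 := by
    simp only [measure_iUnion_null_iff]
    intro i j hij
    exact hnull i j hij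
  rw [ae_iff]
  exact measure_mono_null hunion hzero

lemma bridge_measurable_pairEnergy (φ : ℝ → ℝ) (hφ : Measurable φ) (N : ℕ) :
    Measurable (fun x : Fin N → E3 => pairEnergy φ N x) := by
  unfold pairEnergy
  refine Finset.measurable_sum _ (fun i _ => Finset.measurable_sum _ (fun j _ => ?_))
  by_cases h : i < j
  · simp only [h, if_true]
    exact hφ.comp ((measurable_pi_apply i).dist (measurable_pi_apply j))
  · simp only [h, if_false]
    exact measurable_const

lemma bridge_measurable_boltz (φ : ℝ → ℝ) (hφ : Measurable φ) (N : ℕ) :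
    Measurable (fun x : Fin N → E3 => Real.exp (-(1 * pairEnergy φ N x))) :=
  ((bridge_measurable_pairEnergy φ hφ N).const_mul 1).neg.exp

lemma bridge_boltz_le (φ : ℝ → ℝ) (B : ℝ)
    (hstab : ∀ (N : ℕ) (x : Fin N → E3), Function.Injective x → -(B * N) ≤ pairEnergy φ N x)
    (N : ℕ) : ∀ᵐ x : Fin N → E3, ‖Real.exp (-(1 * pairEnergy φ N x))‖ ≤ Real.exp (B * N) := by
  filter_upwards [bridge_ae_injective N] with x hx
  rw [Real.norm_eq_abs, abs_of_pos (Real.exp_pos _)]
  exact Real.exp_le_exp.mpr (by linarith [hstab N x hx])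

/-- Stability on configurations of distinct points makes the Boltzmann factor integrable on
every `N`-fold box. -/
theorem bridge_integrableOn (φ : ℝ → ℝ) (hφ : Measurable φ) (B : ℝ)
    (hstab : ∀ (N : ℕ) (x : Fin N → E3), Function.Injective x → -(B * N) ≤ pairEnergy φ N x)
    (L : ℝ) (N : ℕ) :
    IntegrableOn (fun x : Fin N → E3 => Real.exp (-(1 * pairEnergy φ N x)))
      {x : Fin N → E3 | ∀ i, x i ∈ box L} := by
  refine Measure.integrableOn_of_bounded (M := Real.exp (B * N))
    (bridge_volume_boxN_lt_top L N).ne ?_ ?_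
  · exact (bridge_measurable_boltz φ hφ N).aestronglyMeasurable
  · exact ae_restrict_of_ae (bridge_boltz_le φ B hstab N)

lemma bridge_canonicalZ_nonneg (φ : ℝ → ℝ) (L : ℝ) (N : ℕ) : 0 ≤ canonicalZ φ 1 L N := by
  unfold canonicalZ
  exact mul_nonneg (by positivity) (integral_nonneg (fun x => (Real.exp_pos _).le))

/-- The `N`-th term is dominated by the exponential series. -/
lemma bridge_term_le (φ : ℝ → ℝ) (B : ℝ)
    (hstab : ∀ (N : ℕ) (x : Fin N → E3), Function.Injective x → -(B * N) ≤ pairEnergy φ N x)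
    (z L : ℝ) (hz : 0 ≤ z) (N : ℕ) :
    z ^ N * canonicalZ φ 1 L N
      ≤ (z * Real.exp B * (volume (box L)).toReal) ^ N / (N.factorial : ℝ) := by
  have hb : ‖∫ x in bridge_boxN L N, Real.exp (-(1 * pairEnergy φ N x))‖
      ≤ Real.exp (B * N) * (volume : Measure (Fin N → E3)).real (bridge_boxN L N) :=
    norm_setIntegral_le_of_norm_le_const_ae (bridge_volume_boxN_lt_top L N)
      (ae_restrict_of_ae (bridge_boltz_le φ B hstab N))
  have hreal : (volume : Measure (Fin N → E3)).real (bridge_boxN L N)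
      = (volume (box L)).toReal ^ N := by
    rw [Measure.real, bridge_volume_boxN, ENNReal.toReal_pow]
  have hexp : Real.exp (B * N) = Real.exp B ^ N := by
    rw [mul_comm, Real.exp_nat_mul]
  have hI : ∫ x in bridge_boxN L N, Real.exp (-(1 * pairEnergy φ N x))
      ≤ Real.exp B ^ N * (volume (box L)).toReal ^ N := by
    have := le_trans (le_abs_self _) (by rwa [Real.norm_eq_abs] at hb)
    rwa [hreal, hexp] at this
  have hfac : (0 : ℝ) < (N.factorial : ℝ) := by exact_mod_cast Nat.factorial_pos N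
  have hzN : 0 ≤ z ^ N := pow_nonneg hz N
  have hinv : 0 ≤ 1 / (N.factorial : ℝ) := by positivity
  unfold canonicalZ
  rw [mul_pow, mul_pow, div_eq_mul_inv]
  calc z ^ N * (1 / (N.factorial : ℝ) * ∫ x in bridge_boxN L N,
          Real.exp (-(1 * pairEnergy φ N x)))
      ≤ z ^ N * (1 / (N.factorial : ℝ) * (Real.exp B ^ N * (volume (box L)).toReal ^ N)) :=
        mul_le_mul_of_nonneg_left (mul_le_mul_of_nonneg_left hI hinv) hzN
    _ = z ^ N * Real.exp B ^ N * (volume (box L)).toReal ^ N * (N.factorial : ℝ)⁻¹ := by ring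

theorem bridge_summable (φ : ℝ → ℝ) (B : ℝ)
    (hstab : ∀ (N : ℕ) (x : Fin N → E3), Function.Injective x → -(B * N) ≤ pairEnergy φ N x)
    (z L : ℝ) (hz : 0 ≤ z) :
    Summable (fun N : ℕ => z ^ N * canonicalZ φ 1 L N) := by
  refine Summable.of_nonneg_of_le
    (fun N => mul_nonneg (pow_nonneg hz N) (bridge_canonicalZ_nonneg φ L N))
    (fun N => bridge_term_le φ B hstab z L hz N) ?_
  exact Real.summable_pow_div_factorial _

/-! ### The statements of the bridge -/

theorem pairEnergy_eq (φ : ℝ → ℝ) (N : ℕ) (x : Fin N → E3) :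
    pairEnergy φ N x = lsum (fun a b => φ (dist a b)) (List.ofFn x) := by
  rw [lsum_ofFn]
  rfl

theorem phi_locbdd (t : ℕ → ℝ) (h : Adm t) (a b : ℝ) (ha : 0 < a) (hab : a ≤ b) :
    ∃ M : ℝ, ∀ r ∈ Set.Icc a b, |Phi t r| ≤ M := by
  refine ⟨(a⁻¹) ^ 4 + ∑' n, t n, ?_⟩
  intro r hr
  have hra : a ≤ r := hr.1
  have hr0 : 0 < r := lt_of_lt_of_le ha hra
  have h1 : |phi0 r| ≤ (a⁻¹) ^ 4 := by
    rw [abs_of_nonneg (phi0_nonneg r)]
    unfold phi0
    split_ifs
    · exact pow_le_pow_left₀ (inv_nonneg.mpr hr0.le) (inv_anti₀ ha hra) 4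
    · positivity
  have h2 : |∑' n, t n * bump n r| ≤ ∑' n, t n := by
    have hs := summable_t_bump t h r
    have hnn : 0 ≤ ∑' n, t n * bump n r :=
      tsum_nonneg (fun n => mul_nonneg (h.1 n) (bump_nonneg n r))
    rw [abs_of_nonneg hnn]
    refine hs.tsum_le_tsum (fun n => ?_) h.2
    have hb : bump n r ≤ 1 := by
      refine le_trans (bump_le n r) ?_
      have hR : 1 ≤ Rn n := by linarith [Rn_ge n]
      exact pow_le_one₀ (inv_nonneg.mpr (by linarith)) (inv_le_one_of_one_le₀ hR)
    calc t n * bump n r ≤ t n * 1 := mul_le_mul_of_nonneg_left hb (h.1 n)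
      _ = t n := mul_one _
  unfold Phi
  calc |phi0 r - ∑' n, t n * bump n r| ≤ |phi0 r| + |∑' n, t n * bump n r| := abs_sub _ _
    _ ≤ (a⁻¹) ^ 4 + ∑' n, t n := add_le_add h1 h2

theorem phi_stable (t : ℕ → ℝ) (h : Adm t) : Stable (Phi t) := by
  obtain ⟨B, _, hB⟩ := stab (∑' n, t n)
  refine ⟨B, fun N x hx => ?_⟩
  have h1 := hB t h le_rfl (List.ofFn x) (List.nodup_ofFn.mpr hx)
  rw [List.length_ofFn] at h1
  rw [pairEnergy_eq]
  exact h1

theorem phi_tempered (t : ℕ → ℝ) (h : Adm t) : Tempered (Phi t) := by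
  refine ⟨1, 1, 1, one_pos, one_pos, one_pos, fun r hr => ?_⟩
  have h1 := Phi_nonpos t h r hr
  have hr0 : (0 : ℝ) < r := by linarith
  have h2 : (0 : ℝ) ≤ 1 * r ^ (-3 - 1 : ℝ) := by positivity
  linarith

theorem boltz_integrable (t : ℕ → ℝ) (h : Adm t) (L : ℝ) (N : ℕ) :
    IntegrableOn (fun x : Fin N → E3 => Real.exp (-(1 * pairEnergy (Phi t) N x)))
      {x : Fin N → E3 | ∀ i, x i ∈ box L} := by
  obtain ⟨B, hB⟩ := phi_stable t h
  exact bridge_integrableOn (Phi t) (measurable_Phi t h) B hB L N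

theorem grandZ_summable (t : ℕ → ℝ) (h : Adm t) (L z : ℝ) (hz : 0 < z) :
    Summable fun N : ℕ => z ^ N * canonicalZ (Phi t) 1 L N := by
  obtain ⟨B, hB⟩ := phi_stable t h
  exact bridge_summable (Phi t) B hB z L hz.le

/-- The `N`-th term of the grand partition sum is the `N`-th term of `Xi`. -/
lemma bridge_term_eq (t : ℕ → ℝ) (h : Adm t) (L z : ℝ) (hz : 0 < z) (N : ℕ) :
    ENNReal.ofReal (z ^ N * canonicalZ (Phi t) 1 L N)
      = cInt (box L) (bw (Real.log z) t) N / (N.factorial : ℝ≥0∞) := by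
  have hmeas : Measurable
      (fun x : Fin N → E3 => ENNReal.ofReal (Real.exp (-(1 * pairEnergy (Phi t) N x)))) :=
    (bridge_measurable_boltz (Phi t) (measurable_Phi t h) N).ennreal_ofReal
  have hbw : ∀ x : Fin N → E3, bw (Real.log z) t (List.ofFn x)
      = ENNReal.ofReal (z ^ N) * ENNReal.ofReal (Real.exp (-(1 * pairEnergy (Phi t) N x))) := by
    intro x
    unfold bw En
    rw [List.length_ofFn, ← pairEnergy_eq, ← ENNReal.ofReal_mul (pow_nonneg hz.le N)]
    congr 1
    rw [sub_eq_add_neg, Real.exp_add, mul_comm (Real.log z) (N : ℝ), Real.exp_nat_mul,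
      Real.exp_log hz, one_mul]
  have h1 : cInt (box L) (bw (Real.log z) t) N
      = ENNReal.ofReal (z ^ N)
          * ∫⁻ x in bridge_boxN L N,
              ENNReal.ofReal (Real.exp (-(1 * pairEnergy (Phi t) N x))) := by
    unfold cInt
    rw [lintegral_indicator (bridge_measurableSet_boxN L N)]
    simp_rw [hbw]
    rw [lintegral_const_mul _ hmeas]
  have h2 : ENNReal.ofReal (∫ x in bridge_boxN L N, Real.exp (-(1 * pairEnergy (Phi t) N x)))
      = ∫⁻ x in bridge_boxN L N,
          ENNReal.ofReal (Real.exp (-(1 * pairEnergy (Phi t) N x))) :=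
    ofReal_integral_eq_lintegral_ofReal (boltz_integrable t h L N)
      (ae_of_all _ (fun x => (Real.exp_pos _).le))
  have hfac : (0 : ℝ) < (N.factorial : ℝ) := by exact_mod_cast Nat.factorial_pos N
  rw [h1, ← h2]
  unfold canonicalZ
  rw [ENNReal.ofReal_mul (pow_nonneg hz.le N), ENNReal.ofReal_mul (by positivity),
    one_div, ENNReal.ofReal_inv_of_pos hfac, ENNReal.ofReal_natCast, ENNReal.div_eq_inv_mul]
  ring

theorem grandZ_eq (t : ℕ → ℝ) (h : Adm t) (L : ℝ) (hL : 0 ≤ L) (z : ℝ) (hz : 0 < z) :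
    grandZ (Phi t) 1 L z = (Xi (box L) (Real.log z) t).toReal := by
  have hnn : ∀ N : ℕ, 0 ≤ z ^ N * canonicalZ (Phi t) 1 L N :=
    fun N => mul_nonneg (pow_nonneg hz.le N) (bridge_canonicalZ_nonneg (Phi t) L N)
  have hX : Xi (box L) (Real.log z) t
      = ENNReal.ofReal (∑' N : ℕ, z ^ N * canonicalZ (Phi t) 1 L N) := by
    rw [ENNReal.ofReal_tsum_of_nonneg hnn (grandZ_summable t h L z hz)]
    unfold Xi gInt
    exact tsum_congr (fun N => (bridge_term_eq t h L z hz N).symm)
  unfold grandZ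
  rw [hX, ENNReal.toReal_ofReal (tsum_nonneg hnn)]

end Vale.Agent.H96.P171
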