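import Mathlib
import Vale.Agent.H96.P171.Defs
import Vale.Agent.H96.P171.Meas
import Vale.Agent.H96.P171.Stab
import Vale.Agent.H96.P171.Bounds
import Vale.Agent.H96.P171.Convex
import Vale.Agent.H96.P171.Superadd
import Vale.Agent.H96.P171.Fekete
import Vale.Agent.H96.P171.Growth
import Vale.Agent.H96.P171.Energy.Basic
import Vale.Agent.H96.P171.Energy.Split
import Vale.Agent.H96.P171.LP.Cells
import Vale.Agent.H96.P171.LP.Params
import Vale.Agent.H96.P171.LP.Pair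
import Vale.Agent.H96.P171.LP.Weight
import Vale.Agent.H96.P171.LP.Grid
import Vale.Agent.H96.P171.LP.JTrick
import Vale.Agent.H96.P171.LP.Claim
import Vale.Agent.H40.P171.LP56

/-!
# P171 moonshot, step (H): the Lebowitz-Penrose upper bound (co-architect: helper79)

Derivative form of the LP upper bound: if the pressure is differentiable in `μ` at `(μ,t)` with derivative `d'`,
then adding a small multiple `σ` of a far bump `e_n` raises the pressure by at most `σ (21/2 d'^2 + ε)`.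
Steps (H1)-(H4) of PLAN.md (shifted grids, Hoelder, factorisation, the j-trick, Fekete)
are in the files `LP/Cells`, `LP/Params`, `LP/Pair`, `LP/Weight`, `LP/Grid`, `LP/JTrick`, `LP/Claim`.

ROW LP-D (this file): `lp_deriv` directly from the CLAIM `Fp_addAt_le` and the abstract real-analysis
theorem `Vale.Agent.H40.P171.lp_deriv_abstract` (which contains the tail cut of the j-sum and step (H5)),
instantiated with `f m = Fp m t`, `G n σ = Fp μ (addAt t n σ)`, `h n m = Fp m (tcut t n)`,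
`g m = Fp m (2 t)`, `l n = rho n`, `τ n = tailS t n`, `δ n = 1 / piN n - 1`, `V = 21`:
`hquad` is `growth (2 ∑ t) 1`, `hcmp` is `Fp_mono` and `Fp_convex` along `t → 2 t`
(`t/π = (1 - δ) t + δ (2 t)`), `hg` is `Fp_le`.
Paper proof: `Vale/Agent/H96/P171/PLAN.md`.
-/

open MeasureTheory Filter Topology
open scoped ENNReal

namespace Vale.Agent.H96.P171

/-- the CLAIM in exponentiated form -/
theorem lpd_claim (t : ℕ → ℝ) (h : Adm t) (μ σ : ℝ) (hσ : 0 < σ) (n : ℕ) (hn : 4 ≤ n) :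
    ENNReal.ofReal (Real.exp ((rho n : ℝ) ^ 3 * Fp μ (addAt t n σ))) ≤
      ∑' j : ℕ, ENNReal.ofReal (Real.exp (-(21 / 2 * (σ + tailS t n)) * (j : ℝ) ^ 2 / (rho n : ℝ) ^ 3
        + ((rho n : ℝ) + 1) ^ 3 *
          Fp (μ + 2 * (21 / 2 * (σ + tailS t n)) * (j : ℝ) / (rho n : ℝ) ^ 3) (tcut t n))) := by
  have hl0 : (0 : ℝ) < (rho n : ℝ) ^ 3 := by
    have : (0 : ℝ) < (rho n : ℝ) := by exact_mod_cast rho_pos n
    positivity
  have heq : (∑' j : ℕ, ENNReal.ofReal (Real.exp (-(21 / 2 * (σ + tailS t n)) * (j : ℝ) ^ 2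
        / (rho n : ℝ) ^ 3 + ((rho n : ℝ) + 1) ^ 3 *
          Fp (μ + 2 * (21 / 2 * (σ + tailS t n)) * (j : ℝ) / (rho n : ℝ) ^ 3) (tcut t n)))) =
      ∑' j : ℕ, ENNReal.ofReal (Real.exp (-(sN t n σ * (j : ℝ) ^ 2 / (rho n : ℝ) ^ 3)
        + ((rho n : ℝ) + 1) ^ 3 * Fp (μ + 2 * sN t n σ * (j : ℝ) / (rho n : ℝ) ^ 3) (tcut t n))) := by
    refine tsum_congr (fun j => ?_)
    have e1 : -(21 / 2 * (σ + tailS t n)) * (j : ℝ) ^ 2 / (rho n : ℝ) ^ 3 =
        -(sN t n σ * (j : ℝ) ^ 2 / (rho n : ℝ) ^ 3) := by unfold sN; ring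
    have e2 : μ + 2 * (21 / 2 * (σ + tailS t n)) * (j : ℝ) / (rho n : ℝ) ^ 3 =
        μ + 2 * sN t n σ * (j : ℝ) / (rho n : ℝ) ^ 3 := by unfold sN; ring
    rw [e1, e2]
  rw [heq]
  by_cases htop : (∑' j : ℕ, ENNReal.ofReal (Real.exp (-(sN t n σ * (j : ℝ) ^ 2 / (rho n : ℝ) ^ 3)
        + ((rho n : ℝ) + 1) ^ 3 * Fp (μ + 2 * sN t n σ * (j : ℝ) / (rho n : ℝ) ^ 3) (tcut t n)))) = ⊤
  · rw [htop]; exact le_top
  · obtain ⟨S, hSdef⟩ : ∃ S : ℝ, S = (∑' j : ℕ, ENNReal.ofReal (Real.exp (-(sN t n σ * (j : ℝ) ^ 2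
        / (rho n : ℝ) ^ 3) + ((rho n : ℝ) + 1) ^ 3 *
          Fp (μ + 2 * sN t n σ * (j : ℝ) / (rho n : ℝ) ^ 3) (tcut t n)))).toReal := ⟨_, rfl⟩
    have hofS : ENNReal.ofReal S = ∑' j : ℕ, ENNReal.ofReal (Real.exp (-(sN t n σ * (j : ℝ) ^ 2
        / (rho n : ℝ) ^ 3) + ((rho n : ℝ) + 1) ^ 3 *
          Fp (μ + 2 * sN t n σ * (j : ℝ) / (rho n : ℝ) ^ 3) (tcut t n))) := by
      rw [hSdef, ENNReal.ofReal_toReal htop]
    have h0 : (1 : ℝ≥0∞) ≤ ∑' j : ℕ, ENNReal.ofReal (Real.exp (-(sN t n σ * (j : ℝ) ^ 2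
        / (rho n : ℝ) ^ 3) + ((rho n : ℝ) + 1) ^ 3 *
          Fp (μ + 2 * sN t n σ * (j : ℝ) / (rho n : ℝ) ^ 3) (tcut t n))) := by
      refine le_trans ?_ (ENNReal.le_tsum 0)
      rw [← ENNReal.ofReal_one]
      apply ENNReal.ofReal_le_ofReal
      apply Real.one_le_exp
      have hF := Fp_nonneg (tcut t n) (Adm_tcut t h n hn)
        (μ + 2 * sN t n σ * ((0 : ℕ) : ℝ) / (rho n : ℝ) ^ 3)
      have hl1 : (0 : ℝ) ≤ ((rho n : ℝ) + 1) ^ 3 := by positivity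
      have := mul_nonneg hl1 hF
      simp only [Nat.cast_zero] at this ⊢
      have e0 : -(sN t n σ * (0 : ℝ) ^ 2 / (rho n : ℝ) ^ 3) = 0 := by simp
      rw [e0]
      linarith
    have hS1 : 1 ≤ S := by
      have := ENNReal.toReal_mono htop h0
      rw [hSdef]
      simpa using this
    have hcl := Fp_addAt_le t h μ σ hσ.le n hn S hS1 (by rw [hofS])
    rw [le_div_iff₀ hl0] at hcl
    rw [← hofS]
    apply ENNReal.ofReal_le_ofReal
    have hS0 : 0 < S := by linarith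
    calc Real.exp ((rho n : ℝ) ^ 3 * Fp μ (addAt t n σ))
        ≤ Real.exp (Real.log S) := Real.exp_le_exp.mpr (by linarith)
      _ = S := Real.exp_log hS0

/-- comparison of the cut parameter with the original one -/
theorem lpd_cmp (t : ℕ → ℝ) (h : Adm t) (n : ℕ) (hn : 4 ≤ n) (hπ : 1 / 2 ≤ piN n) (m : ℝ) :
    Fp m (tcut t n) ≤ Fp m t + (1 / piN n - 1) * Fp m (fun k => 2 * t k) := by
  have hp0 : 0 < piN n := piN_pos n hn
  have hp1 : piN n ≤ 1 := piN_le_one n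
  have h2t : Adm (fun k => 2 * t k) :=
    ⟨fun k => mul_nonneg (by norm_num) (h.1 k), h.2.mul_left 2⟩
  have hdiv : Adm (fun k => t k / piN n) :=
    ⟨fun k => div_nonneg (h.1 k) hp0.le, h.2.div_const (piN n)⟩
  have hb0 : 0 ≤ 1 / piN n - 1 := by
    have := one_le_one_div hp0 hp1
    linarith
  have hb1 : 1 / piN n - 1 ≤ 1 := by
    have : 1 / piN n ≤ 2 := by
      rw [div_le_iff₀ hp0]; linarith
    linarith
  have ha0 : 0 ≤ 1 - (1 / piN n - 1) := by linarith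
  have h1 := Fp_mono m (tcut t n) (fun k => t k / piN n) (Adm_tcut t h n hn) hdiv
    (tcut_le t h n hn)
  have h2 := Fp_convex m m t (fun k => 2 * t k) h h2t (1 - (1 / piN n - 1)) (1 / piN n - 1)
    ha0 hb0 (by ring)
  have e1 : (1 - (1 / piN n - 1)) * m + (1 / piN n - 1) * m = m := by ring
  have e2 : (fun k => (1 - (1 / piN n - 1)) * t k + (1 / piN n - 1) * (2 * t k)) =
      (fun k => t k / piN n) := by
    funext k
    field_simp
    ring
  rw [e1, e2] at h2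
  have h3 : (1 - (1 / piN n - 1)) * Fp m t ≤ 1 * Fp m t :=
    mul_le_mul_of_nonneg_right (by linarith) (Fp_nonneg t h m)
  linarith

/-- quadratic bound for the cut parameter -/
theorem lpd_quad (t : ℕ → ℝ) (h : Adm t) (C : ℝ)
    (hC : ∀ t2 : ℕ → ℝ, Adm t2 → ∑' k, t2 k ≤ 2 * ∑' k, t k → ∀ m : ℝ,
      Fp m t2 ≤ 1 + (max (m + C) 0) ^ 2 / (4 * 1))
    (n : ℕ) (hn : 4 ≤ n) (hπ : 1 / 2 ≤ piN n) (m : ℝ) :
    Fp m (tcut t n) ≤ (1 + C ^ 2 / 2) + 1 / 2 * m ^ 2 := by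
  have hp0 : 0 < piN n := piN_pos n hn
  have hsum0 : 0 ≤ ∑' k, t k := tsum_nonneg h.1
  have hsum : ∑' k, tcut t n k ≤ 2 * ∑' k, t k := by
    refine (tsum_tcut_le t h n hn).trans ?_
    rw [div_le_iff₀ hp0]
    nlinarith
  have h1 := hC (tcut t n) (Adm_tcut t h n hn) hsum m
  have h2 : (max (m + C) 0) ^ 2 ≤ 2 * m ^ 2 + 2 * C ^ 2 := by
    rcases le_total (m + C) 0 with h0 | h0
    · rw [max_eq_right h0]; nlinarith [sq_nonneg m, sq_nonneg C]
    · rw [max_eq_left h0]; nlinarith [sq_nonneg (m - C)]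
  linarith

theorem lp_deriv (t : ℕ → ℝ) (h : Adm t) (μ d' : ℝ)
    (hd : HasDerivAt (fun m : ℝ => Fp m t) d' μ) (ε : ℝ) (hε : 0 < ε) :
    ∃ σ : ℝ, 0 < σ ∧ ∃ n0 : ℕ, ∀ n : ℕ, n0 ≤ n →
      Fp μ (addAt t n σ) ≤ Fp μ t + σ * ((21 / 2) * d' ^ 2 + ε) := by
  have hpi_ev : ∀ᶠ n in atTop, (1 : ℝ) / 2 < piN n :=
    (tendsto_order.1 tendsto_piN).1 (1 / 2) (by norm_num)
  obtain ⟨n2, hn2⟩ := eventually_atTop.1 hpi_ev
  obtain ⟨C, hC⟩ := growth (2 * ∑' k, t k) 1 one_pos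
  obtain ⟨B, hB0, hB⟩ := Fp_le (∑' k, 2 * t k)
  have h2t : Adm (fun k => 2 * t k) :=
    ⟨fun k => mul_nonneg (by norm_num) (h.1 k), h.2.mul_left 2⟩
  have h4 : ∀ n, max 4 n2 ≤ n → 4 ≤ n := fun n hn => (le_max_left 4 n2).trans hn
  have hπ : ∀ n, max 4 n2 ≤ n → 1 / 2 ≤ piN n :=
    fun n hn => (hn2 n ((le_max_right 4 n2).trans hn)).le
  have hδ : Tendsto (fun n => 1 / piN n - 1) atTop (𝓝 0) := by
    have h1 := ((tendsto_const_nhds (x := (1 : ℝ))).div tendsto_piN one_ne_zero).sub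
      (tendsto_const_nhds (x := (1 : ℝ)))
    simpa using h1
  exact Vale.Agent.H40.P171.lp_deriv_abstract (fun m => Fp m t) μ d' 21 ε hd (by norm_num) hε
    (max 4 n2) (fun n => (rho n : ℝ)) (tailS t) (fun n => 1 / piN n - 1)
    (fun n _ => by exact_mod_cast rho_pos n) tendsto_rho
    (fun n _ => tailS_nonneg t h n) (tendsto_tailS t h)
    (fun n hn => by
      have := one_le_one_div (piN_pos n (h4 n hn)) (piN_le_one n)
      linarith) hδ
    (fun n m => Fp m (tcut t n)) (fun n σ => Fp μ (addAt t n σ)) (fun m => Fp m (fun k => 2 * t k))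
    (1 + C ^ 2 / 2) (1 / 2)
    (fun n hn => Fp_nonneg (tcut t n) (Adm_tcut t h n (h4 n hn)) μ)
    (fun n m hn => lpd_quad t h C hC n (h4 n hn) (hπ n hn) m)
    (fun n m hn => lpd_cmp t h n (h4 n hn) (hπ n hn) m)
    (fun K => ⟨Real.exp (K + B), fun m hm => (hB _ h2t le_rfl m).trans
      (Real.exp_le_exp.mpr (by linarith [le_abs_self m]))⟩)
    (fun n σ hn hσ => lpd_claim t h μ σ hσ n (h4 n hn))

end Vale.Agent.H96.P171
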