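import Mathlib
import Vale.Agent.H96.P171.Defs
import Vale.Agent.H96.P171.Meas
import Vale.Agent.H96.P171.Bounds
import Vale.Agent.H96.P171.Energy.Basic
import Vale.Agent.H96.P171.Energy.Split
import Vale.Agent.H96.P171.Energy.Lsum
import Vale.Agent.H42.P171.Labelled

/-!
# P171 moonshot, step (4a): the trial minorant in finite volume

Box of side `2k-1`, unit cubes `C_v = 2v + [0,1]^3`, `v ∈ {0..k-1}^3`; keep the configurations with exactly one point in each `C_v`
(`gInt_iUnion` with `u_v(l) = e^μ 1[l.length = 1]`, then `gInt_mono_set`, `gInt_mono_fun`). Different cores are at distance `≥ 1` (core energy `0`);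
points of `C_v`, `C_w` with `|v-w|_inf ≤ rho n` are at distance `≤ √3 (2 rho n + 1) < R_n`. Number of such unordered pairs `≥ ((2 rho n + 1)^3 - 1) k^3/4` for `k ≥ 10 rho n`.
So `logXi (2k-1) / (2k)^3 ≥ μ/8 + ∑_{n ≤ n0} lam n * t n`; then `k → ∞`, `n0 → ∞`.
Paper proof: `Vale/Agent/H96/P171/PLAN.md`.

Route used here: the single term `N = k^3` of the grand-canonical sum and the labelled lower
bound `labelled_lower_const` of `Vale/Agent/H42/P171/Labelled.lean` (one point in each cube).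
-/

open MeasureTheory
open scoped ENNReal

namespace Vale.Agent.H96.P171

/-- The unit cube `2v + [0,1]^3`. -/
def minorantfv_cell {k : ℕ} (v : Fin 3 → Fin k) : Set E3 :=
  {p | ∀ i, 2 * ((v i : ℕ) : ℝ) ≤ p i ∧ p i ≤ 2 * ((v i : ℕ) : ℝ) + 1}

theorem minorantfv_cell_eq {k : ℕ} (v : Fin 3 → Fin k) :
    minorantfv_cell v = (@WithLp.ofLp 2 (Fin 3 → ℝ)) ⁻¹'
      (Set.pi Set.univ (fun i : Fin 3 =>
        Set.Icc (2 * ((v i : ℕ) : ℝ)) (2 * ((v i : ℕ) : ℝ) + 1))) := by
  ext p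
  simp only [minorantfv_cell, Set.mem_preimage, Set.mem_pi, Set.mem_univ, forall_true_left,
    Set.mem_Icc]
  rfl

theorem minorantfv_cell_meas {k : ℕ} (v : Fin 3 → Fin k) :
    MeasurableSet (minorantfv_cell v) := by
  rw [minorantfv_cell_eq]
  exact (PiLp.volume_preserving_ofLp (Fin 3)).measurable
    (MeasurableSet.univ_pi (fun _ => measurableSet_Icc))

theorem minorantfv_cell_vol {k : ℕ} (v : Fin 3 → Fin k) :
    volume (minorantfv_cell v) = 1 := by
  rw [minorantfv_cell_eq,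
    (PiLp.volume_preserving_ofLp (Fin 3)).measure_preimage
      (MeasurableSet.univ_pi (fun _ => measurableSet_Icc)).nullMeasurableSet,
    volume_pi_pi]
  simp [Real.volume_Icc]

theorem minorantfv_cell_sub_box {k : ℕ} (v : Fin 3 → Fin k) :
    minorantfv_cell v ⊆ box (2 * (k : ℝ) - 1) := by
  intro p hp i
  have h1 := (hp i).1
  have h2 := (hp i).2
  have hv : ((v i : ℕ) : ℝ) + 1 ≤ (k : ℝ) := by exact_mod_cast (v i).isLt
  have hv0 : (0 : ℝ) ≤ ((v i : ℕ) : ℝ) := Nat.cast_nonneg _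
  constructor <;> linarith

theorem minorantfv_coord_le (p q : E3) (i : Fin 3) : |p i - q i| ≤ dist p q := by
  rw [EuclideanSpace.dist_eq]
  apply Real.abs_le_sqrt
  have h := Finset.single_le_sum (f := fun j => dist (p j) (q j) ^ 2)
    (fun j _ => sq_nonneg _) (Finset.mem_univ i)
  simpa [Real.dist_eq, sq_abs] using h

theorem minorantfv_dist_ge {k : ℕ} {v w : Fin 3 → Fin k} (hvw : v ≠ w) {p q : E3}
    (hp : p ∈ minorantfv_cell v) (hq : q ∈ minorantfv_cell w) : 1 ≤ dist p q := by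
  obtain ⟨i, hi⟩ := Function.ne_iff.mp hvw
  have h1 : (1 : ℝ) ≤ |p i - q i| := by
    have hne : ((v i : ℕ)) ≠ ((w i : ℕ)) := fun h => hi (Fin.ext h)
    have hp1 := (hp i).1
    have hp2 := (hp i).2
    have hq1 := (hq i).1
    have hq2 := (hq i).2
    rcases lt_or_gt_of_ne hne with hlt | hgt
    · have h3 : ((v i : ℕ) : ℝ) + 1 ≤ ((w i : ℕ) : ℝ) := by exact_mod_cast hlt
      rw [abs_sub_comm]
      exact le_trans (by linarith) (le_abs_self _)
    · have h3 : ((w i : ℕ) : ℝ) + 1 ≤ ((v i : ℕ) : ℝ) := by exact_mod_cast hgt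
      exact le_trans (by linarith) (le_abs_self _)
  exact le_trans h1 (minorantfv_coord_le p q i)

theorem minorantfv_dist_lt {k : ℕ} (n : ℕ) {v w : Fin 3 → Fin k}
    (hnear : ∀ c, (v c : ℕ) ≤ (w c : ℕ) + rho n ∧ (w c : ℕ) ≤ (v c : ℕ) + rho n) {p q : E3}
    (hp : p ∈ minorantfv_cell v) (hq : q ∈ minorantfv_cell w) : dist p q < Rn n := by
  have hR : Rn n = 4 * (rho n : ℝ) + 2 := rfl
  have hρ : (0 : ℝ) ≤ (rho n : ℝ) := Nat.cast_nonneg _
  have hc : ∀ c, (p c - q c) ^ 2 ≤ (2 * (rho n : ℝ) + 1) ^ 2 := by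
    intro c
    have h1 : ((v c : ℕ) : ℝ) ≤ ((w c : ℕ) : ℝ) + (rho n : ℝ) := by exact_mod_cast (hnear c).1
    have h2 : ((w c : ℕ) : ℝ) ≤ ((v c : ℕ) : ℝ) + (rho n : ℝ) := by exact_mod_cast (hnear c).2
    have hp1 := (hp c).1
    have hp2 := (hp c).2
    have hq1 := (hq c).1
    have hq2 := (hq c).2
    apply sq_le_sq'
    · linarith
    · linarith
  rw [EuclideanSpace.dist_eq, hR, Real.sqrt_lt' (by linarith)]
  calc ∑ i, dist (p i) (q i) ^ 2 = ∑ i : Fin 3, (p i - q i) ^ 2 := by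
        simp [Real.dist_eq, sq_abs]
    _ ≤ ∑ i : Fin 3, (2 * (rho n : ℝ) + 1) ^ 2 := Finset.sum_le_sum (fun i _ => hc i)
    _ = 3 * (2 * (rho n : ℝ) + 1) ^ 2 := by simp
    _ < (4 * (rho n : ℝ) + 2) ^ 2 := by nlinarith

theorem minorantfv_card_nbr (k r : ℕ) (a : Fin k) (h1 : r ≤ (a : ℕ)) (h2 : (a : ℕ) + r < k) :
    (Finset.univ.filter (fun b : Fin k => (a : ℕ) ≤ (b : ℕ) + r ∧ (b : ℕ) ≤ (a : ℕ) + r)).card
      = 2 * r + 1 := by
  have hlo : (a : ℕ) - r < k := by omega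
  have e : Finset.univ.filter (fun b : Fin k => (a : ℕ) ≤ (b : ℕ) + r ∧ (b : ℕ) ≤ (a : ℕ) + r)
      = Finset.Icc (⟨(a : ℕ) - r, hlo⟩ : Fin k) ⟨(a : ℕ) + r, h2⟩ := by
    ext b
    simp only [Finset.mem_filter, Finset.mem_univ, true_and, Finset.mem_Icc, Fin.le_def]
    omega
  rw [e, Fin.card_Icc]
  simp only []
  omega

theorem minorantfv_card_int (k r : ℕ) (h : 2 * r < k) :
    (Finset.univ.filter (fun a : Fin k => r ≤ (a : ℕ) ∧ (a : ℕ) + r < k)).card = k - 2 * r := by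
  have hlo : r < k := by omega
  have hhi : k - 1 - r < k := by omega
  have e : Finset.univ.filter (fun a : Fin k => r ≤ (a : ℕ) ∧ (a : ℕ) + r < k)
      = Finset.Icc (⟨r, hlo⟩ : Fin k) ⟨k - 1 - r, hhi⟩ := by
    ext b
    simp only [Finset.mem_filter, Finset.mem_univ, true_and, Finset.mem_Icc, Fin.le_def]
    omega
  rw [e, Fin.card_Icc]
  simp only []
  omega

/-- The counting bound: ordered pairs of distinct near cells. -/
theorem minorantfv_count (k r : ℕ) (hk : 10 * r ≤ k)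
    (B : (Fin 3 → Fin k) → (Fin 3 → Fin k) → ℝ) (c0 : ℝ) (hc0 : 0 ≤ c0)
    (hB0 : ∀ v w, 0 ≤ B v w)
    (hB : ∀ v w, v ≠ w →
      (∀ c, ((v c : ℕ) ≤ (w c : ℕ) + r ∧ (w c : ℕ) ≤ (v c : ℕ) + r)) → c0 ≤ B v w) :
    c0 * ((k : ℝ) ^ 3 / 2 * ((2 * (r : ℝ) + 1) ^ 3 - 1))
      ≤ ∑ v, ∑ w, if v ≠ w then B v w else 0 := by
  classical
  rcases Nat.eq_zero_or_pos k with hk0 | hkpos
  · subst hk0
    simp
  have h2r : 2 * r < k := by omega
  have hnn : ∀ v w : Fin 3 → Fin k, (0 : ℝ) ≤ (if v ≠ w then B v w else 0) := by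
    intro v w
    split_ifs
    · exact hB0 v w
    · exact le_refl 0
  set I : Finset (Fin 3 → Fin k) := Fintype.piFinset (fun _ : Fin 3 =>
    Finset.univ.filter (fun a : Fin k => r ≤ (a : ℕ) ∧ (a : ℕ) + r < k)) with hI
  have hIcard : I.card = (k - 2 * r) ^ 3 := by
    rw [hI, Fintype.card_piFinset]
    simp [minorantfv_card_int k r h2r]
  have hfac : (0 : ℝ) ≤ ((2 * (r : ℝ) + 1) ^ 3 - 1) * c0 := by
    apply mul_nonneg _ hc0
    have hr0 : (0 : ℝ) ≤ r := Nat.cast_nonneg r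
    have : (1 : ℝ) ≤ (2 * (r : ℝ) + 1) ^ 3 := one_le_pow₀ (by linarith)
    linarith
  have hstep : ∀ v ∈ I, ((2 * (r : ℝ) + 1) ^ 3 - 1) * c0
      ≤ ∑ w, if v ≠ w then B v w else 0 := by
    intro v hv
    rw [hI, Fintype.mem_piFinset] at hv
    set Nv : Finset (Fin 3 → Fin k) := Fintype.piFinset (fun c : Fin 3 =>
      Finset.univ.filter (fun b : Fin k => (v c : ℕ) ≤ (b : ℕ) + r ∧ (b : ℕ) ≤ (v c : ℕ) + r))
      with hNv
    have hNcard : Nv.card = (2 * r + 1) ^ 3 := by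
      rw [hNv, Fintype.card_piFinset]
      have hc : ∀ c : Fin 3, (Finset.univ.filter (fun b : Fin k =>
          (v c : ℕ) ≤ (b : ℕ) + r ∧ (b : ℕ) ≤ (v c : ℕ) + r)).card = 2 * r + 1 := by
        intro c
        have := hv c
        simp only [Finset.mem_filter, Finset.mem_univ, true_and] at this
        exact minorantfv_card_nbr k r (v c) this.1 this.2
      simp [hc]
    have hvN : v ∈ Nv := by
      rw [hNv, Fintype.mem_piFinset]
      intro c
      simp
    have hcard' : (((Nv.erase v).card : ℕ) : ℝ) = (2 * (r : ℝ) + 1) ^ 3 - 1 := by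
      rw [Finset.card_erase_of_mem hvN, hNcard]
      have h1 : 1 ≤ (2 * r + 1) ^ 3 := Nat.one_le_pow _ _ (by omega)
      rw [Nat.cast_sub h1]
      push_cast
      ring
    calc ((2 * (r : ℝ) + 1) ^ 3 - 1) * c0 = ∑ w ∈ Nv.erase v, c0 := by
          rw [Finset.sum_const, nsmul_eq_mul, hcard']
      _ ≤ ∑ w ∈ Nv.erase v, (if v ≠ w then B v w else 0) := by
          refine Finset.sum_le_sum (fun w hw => ?_)
          rw [Finset.mem_erase] at hw
          rw [if_pos hw.1.symm]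
          have hwN := hw.2
          rw [hNv, Fintype.mem_piFinset] at hwN
          exact hB v w hw.1.symm (fun c => by simpa using hwN c)
      _ ≤ ∑ w, (if v ≠ w then B v w else 0) :=
          Finset.sum_le_sum_of_subset_of_nonneg (Finset.subset_univ _) (fun w _ _ => hnn v w)
  have hcast : (((k - 2 * r) ^ 3 : ℕ) : ℝ) = ((k : ℝ) - 2 * r) ^ 3 := by
    rw [Nat.cast_pow, Nat.cast_sub (le_of_lt h2r)]
    push_cast
    ring
  have hkr : (10 : ℝ) * r ≤ k := by exact_mod_cast hk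
  have hr0 : (0 : ℝ) ≤ r := Nat.cast_nonneg r
  have hk0' : (0 : ℝ) ≤ k := Nat.cast_nonneg k
  have h45 : (4 / 5 : ℝ) * k ≤ (k : ℝ) - 2 * r := by linarith
  have hpow : (k : ℝ) ^ 3 / 2 ≤ ((k : ℝ) - 2 * r) ^ 3 := by
    calc (k : ℝ) ^ 3 / 2 ≤ ((4 / 5 : ℝ) * k) ^ 3 := by nlinarith [pow_nonneg hk0' 3]
      _ ≤ ((k : ℝ) - 2 * r) ^ 3 := pow_le_pow_left₀ (by positivity) h45 3
  calc c0 * ((k : ℝ) ^ 3 / 2 * ((2 * (r : ℝ) + 1) ^ 3 - 1))
      = (k : ℝ) ^ 3 / 2 * (((2 * (r : ℝ) + 1) ^ 3 - 1) * c0) := by ring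
    _ ≤ ((k : ℝ) - 2 * r) ^ 3 * (((2 * (r : ℝ) + 1) ^ 3 - 1) * c0) :=
        mul_le_mul_of_nonneg_right hpow hfac
    _ = ∑ v ∈ I, ((2 * (r : ℝ) + 1) ^ 3 - 1) * c0 := by
        rw [Finset.sum_const, nsmul_eq_mul, hIcard, hcast]
    _ ≤ ∑ v ∈ I, ∑ w, (if v ≠ w then B v w else 0) := Finset.sum_le_sum hstep
    _ ≤ ∑ v, ∑ w, (if v ≠ w then B v w else 0) :=
        Finset.sum_le_sum_of_subset_of_nonneg (Finset.subset_univ _)
          (fun v _ _ => Finset.sum_nonneg (fun w _ => hnn v w))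

theorem minorantfv_Ecore {k N : ℕ} (e : Fin N ≃ (Fin 3 → Fin k)) (x : Fin N → E3)
    (hx : ∀ i, x i ∈ minorantfv_cell (e i)) : Ecore (List.ofFn x) = 0 := by
  unfold Ecore
  rw [lsum_ofFn]
  refine Finset.sum_eq_zero (fun i _ => Finset.sum_eq_zero (fun j _ => ?_))
  split_ifs with hij
  · have hne : e i ≠ e j := fun h => (ne_of_lt hij) (e.injective h)
    have := minorantfv_dist_ge hne (hx i) (hx j)
    unfold phi0
    rw [if_neg (not_lt.mpr this)]
  · rfl

theorem minorantfv_Wn {k N : ℕ} (e : Fin N ≃ (Fin 3 → Fin k)) (x : Fin N → E3)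
    (hx : ∀ i, x i ∈ minorantfv_cell (e i)) (n : ℕ) (hk : 10 * rho n ≤ k) :
    (k : ℝ) ^ 3 * (8 * lam n) ≤ Wn n (List.ofFn x) := by
  classical
  unfold Wn
  rw [lsum_ofFn]
  set b : Fin N → Fin N → ℝ := fun i j => bump n (dist (x i) (x j)) with hb
  have hsym : ∀ i j, b i j = b j i := fun i j => by simp only [hb, dist_comm]
  have h2 : 2 * ∑ i, ∑ j, (if i < j then b i j else 0)
      = ∑ i, ∑ j, (if i ≠ j then b i j else 0) := by
    have hswap : ∑ i, ∑ j, (if i < j then b i j else 0)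
        = ∑ i, ∑ j, (if j < i then b i j else 0) := by
      rw [Finset.sum_comm]
      refine Finset.sum_congr rfl (fun i _ => Finset.sum_congr rfl (fun j _ => ?_))
      rw [hsym]
    have h2' : 2 * ∑ i, ∑ j, (if i < j then b i j else 0)
        = ∑ i, ∑ j, (if i < j then b i j else 0) + ∑ i, ∑ j, (if j < i then b i j else 0) := by
      rw [← hswap]
      ring
    rw [h2', ← Finset.sum_add_distrib]
    refine Finset.sum_congr rfl (fun i _ => ?_)
    rw [← Finset.sum_add_distrib]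
    refine Finset.sum_congr rfl (fun j _ => ?_)
    rcases lt_trichotomy i j with hij | hij | hij
    · rw [if_pos hij, if_neg (not_lt_of_gt hij), if_pos (ne_of_lt hij), add_zero]
    · subst hij
      simp
    · rw [if_neg (not_lt_of_gt hij), if_pos hij, if_pos (ne_of_gt hij), zero_add]
  have h3 : ∑ i, ∑ j, (if i ≠ j then b i j else 0)
      = ∑ v, ∑ w, (if v ≠ w then bump n (dist (x (e.symm v)) (x (e.symm w))) else 0) := by
    refine Fintype.sum_equiv e _ _ (fun i => ?_)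
    refine Fintype.sum_equiv e _ _ (fun j => ?_)
    simp only [hb, Equiv.symm_apply_apply, ne_eq, EmbeddingLike.apply_eq_iff_eq]
  have hRpos : 0 < Rn n := basic_Rn_pos n
  have hc0 : (0 : ℝ) ≤ ((Rn n)⁻¹) ^ 3 := pow_nonneg (inv_nonneg.mpr hRpos.le) 3
  have hcount := minorantfv_count k (rho n) hk
    (fun v w => bump n (dist (x (e.symm v)) (x (e.symm w)))) (((Rn n)⁻¹) ^ 3) hc0
    (fun v w => bump_nonneg n _)
    (fun v w _ hnear => by
      have hv : x (e.symm v) ∈ minorantfv_cell v := by simpa using hx (e.symm v)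
      have hw : x (e.symm w) ∈ minorantfv_cell w := by simpa using hx (e.symm w)
      have hlt := minorantfv_dist_lt n hnear hv hw
      show ((Rn n)⁻¹) ^ 3 ≤ bump n (dist (x (e.symm v)) (x (e.symm w)))
      unfold bump
      rw [if_pos hlt])
  rw [← h3, ← h2] at hcount
  have hlam : lam n = ((Rn n)⁻¹) ^ 3 * ((2 * (rho n : ℝ) + 1) ^ 3 - 1) / 32 := rfl
  rw [hlam]
  linarith

/-- Finite-volume trial bound: one particle in each unit cube `2v + [0,1]^3`, `v ∈ {0..k-1}^3`. -/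
theorem minorant_fv (t : ℕ → ℝ) (h : Adm t) (μ : ℝ) (k n0 : ℕ) (hk : 10 * rho n0 ≤ k) :
    (k : ℝ) ^ 3 * μ + (k : ℝ) ^ 3 * (8 * ∑ n ∈ Finset.range n0, lam n * t n)
      ≤ logXi (2 * (k : ℝ) - 1) μ t := by
  classical
  have hρ1 : 1 ≤ rho n0 := Nat.factorial_pos _
  have hk1 : 1 ≤ k := by omega
  set N : ℕ := Fintype.card (Fin 3 → Fin k) with hN
  have hNk : (N : ℝ) = (k : ℝ) ^ 3 := by simp [hN]
  let e : Fin N ≃ (Fin 3 → Fin k) := (Fintype.equivFin (Fin 3 → Fin k)).symm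
  set L : ℝ := 2 * (k : ℝ) - 1 with hL
  have hL0 : 0 ≤ L := by
    have : (1 : ℝ) ≤ k := by exact_mod_cast hk1
    linarith
  set S : ℝ := (k : ℝ) ^ 3 * μ + (k : ℝ) ^ 3 * (8 * ∑ n ∈ Finset.range n0, lam n * t n) with hS
  let W : (Fin N → E3) → ℝ≥0∞ := fun x =>
    Set.indicator {x : Fin N → E3 | ∀ i, x i ∈ box L} (fun x => bw μ t (List.ofFn x)) x
  have hW : ∀ (s : Equiv.Perm (Fin N)) (x : Fin N → E3), W (x ∘ s) = W x := by
    intro s x
    have hmem : (x ∘ s) ∈ {x : Fin N → E3 | ∀ i, x i ∈ box L}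
        ↔ x ∈ {x : Fin N → E3 | ∀ i, x i ∈ box L} := by
      simp only [Set.mem_ofPred_eq, Function.comp_apply]
      exact ⟨fun hx i => by simpa using hx (s.symm i), fun hx i => hx (s i)⟩
    have hbw : bw μ t (List.ofFn (x ∘ s)) = bw μ t (List.ofFn x) := by
      unfold bw En
      rw [lsum_perm _ (fun a b => by rw [dist_comm]) (Equiv.Perm.ofFn_comp_perm s x)]
      simp
    show Set.indicator _ _ (x ∘ s) = Set.indicator _ _ x
    by_cases hx : x ∈ {x : Fin N → E3 | ∀ i, x i ∈ box L}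
    · rw [Set.indicator_of_mem (hmem.mpr hx), Set.indicator_of_mem hx, hbw]
    · rw [Set.indicator_of_notMem (fun h' => hx (hmem.mp h')), Set.indicator_of_notMem hx]
  let C : Fin N → Set E3 := fun i => minorantfv_cell (e i)
  have hC : Pairwise (Function.onFun Disjoint C) := by
    intro i j hij
    show Disjoint (minorantfv_cell (e i)) (minorantfv_cell (e j))
    rw [Set.disjoint_left]
    intro p hp hq
    have hne : e i ≠ e j := fun h' => hij (e.injective h')
    have := minorantfv_dist_ge hne hp hq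
    rw [dist_self] at this
    linarith
  have hCm : ∀ i, MeasurableSet (C i) := fun i => minorantfv_cell_meas (e i)
  have hc : ∀ x : Fin N → E3, (∀ i, x i ∈ C i) → ENNReal.ofReal (Real.exp S) ≤ W x := by
    intro x hx
    have hbox : x ∈ {x : Fin N → E3 | ∀ i, x i ∈ box L} :=
      fun i => minorantfv_cell_sub_box (e i) (hx i)
    show _ ≤ Set.indicator _ _ x
    rw [Set.indicator_of_mem hbox]
    unfold bw
    apply ENNReal.ofReal_le_ofReal
    apply Real.exp_le_exp.mpr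
    rw [List.length_ofFn, hNk, En_eq t h, minorantfv_Ecore e x hx]
    have hsum : ∑ n ∈ Finset.range n0, t n * ((k : ℝ) ^ 3 * (8 * lam n))
        ≤ ∑' n, t n * Wn n (List.ofFn x) := by
      calc ∑ n ∈ Finset.range n0, t n * ((k : ℝ) ^ 3 * (8 * lam n))
          ≤ ∑ n ∈ Finset.range n0, t n * Wn n (List.ofFn x) := by
            refine Finset.sum_le_sum (fun n hn => mul_le_mul_of_nonneg_left ?_ (h.1 n))
            have hn' : n < n0 := Finset.mem_range.mp hn
            have hρ : rho n ≤ rho n0 := Nat.factorial_le (by omega)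
            exact minorantfv_Wn e x hx n (by omega)
        _ ≤ ∑' n, t n * Wn n (List.ofFn x) :=
            (summable_t_Wn t h _).sum_le_tsum _
              (fun n _ => mul_nonneg (h.1 n) (Wn_nonneg n _))
    have hS' : S = (k : ℝ) ^ 3 * μ + ∑ n ∈ Finset.range n0, t n * ((k : ℝ) ^ 3 * (8 * lam n)) := by
      rw [hS, Finset.mul_sum, Finset.mul_sum]
      congr 1
      exact Finset.sum_congr rfl (fun n _ => by ring)
    rw [hS']
    linarith
  have hmain := Vale.Agent.H42.P171.labelled_lower_const (volume : Measure E3) N W hW C hC hCm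
    (ENNReal.ofReal (Real.exp S)) hc
  have hvol : ∏ i, (volume : Measure E3) (C i) = 1 :=
    Finset.prod_eq_one (fun i _ => minorantfv_cell_vol (e i))
  rw [hvol, mul_one] at hmain
  have hcInt : ∫⁻ x, W x ∂(Measure.pi fun _ : Fin N => (volume : Measure E3))
      = cInt (box L) (bw μ t) N := rfl
  rw [hcInt] at hmain
  have hXi : ENNReal.ofReal (Real.exp S) ≤ Xi (box L) μ t := by
    unfold Xi gInt
    refine le_trans ?_ (ENNReal.le_tsum N)
    rw [ENNReal.le_div_iff_mul_le (Or.inl (Nat.cast_ne_zero.mpr (Nat.factorial_ne_zero N)))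
      (Or.inl (ENNReal.natCast_ne_top _)), mul_comm]
    exact hmain
  have hne := Xi_ne_top t h μ L hL0
  have hle : Real.exp S ≤ (Xi (box L) μ t).toReal := (ENNReal.ofReal_le_iff_le_toReal hne).mp hXi
  unfold logXi
  exact (Real.le_log_iff_exp_le (lt_of_lt_of_le (Real.exp_pos S) hle)).mpr hle

end Vale.Agent.H96.P171
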