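import Mathlib
import Vale.Agent.H96.P171.Defs
import Vale.Agent.H96.P171.Meas
import Vale.Agent.H96.P171.Bounds
import Vale.Agent.H96.P171.Energy.Basic
import Vale.Agent.H96.P171.Energy.Split
import Vale.Agent.H96.P171.Fekete
import Vale.Agent.H96.P171.MinorantFV

/-!
# P171 moonshot, step (4b): the trial minorant for the pressure

From `minorant_fv` (file MinorantFV.lean): `Fp μ t ≥ logXi (2k-1) μ t / (2k)^3 ≥ μ/8 + ∑_{n < n0} lam n * t n` for `k = 10 * rho n0`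
(`logXi_le_Fp` with `ℓ = 2k - 2`); then `n0 → ∞` (nonnegative terms, `lam_le`). `lam n = (1 - (2 rho n + 1)^(-3))/256` since `Rn n = 2 (2 rho n + 1)`.
Paper proof: `Vale/Agent/H96/P171/PLAN.md`.
-/

open MeasureTheory
open scoped ENNReal

namespace Vale.Agent.H96.P171

theorem minorant_rho_ge (n : ℕ) : (1 : ℝ) ≤ (rho n : ℝ) := by
  have h : 1 ≤ rho n := Nat.factorial_pos (n + 1)
  exact_mod_cast h

theorem minorant_lam_eq (n : ℕ) :
    lam n = ((2 * (rho n : ℝ) + 1) ^ 3 - 1) / (256 * (2 * (rho n : ℝ) + 1) ^ 3) := by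
  have hx := minorant_rho_ge n
  have hy : (2 * (rho n : ℝ) + 1) ≠ 0 := by linarith
  have hR : (4 * (rho n : ℝ) + 2) ≠ 0 := by linarith
  unfold lam Rn
  field_simp
  ring

theorem lam_ge (n : ℕ) : 1 / 300 ≤ lam n := by
  have hx := minorant_rho_ge n
  have hy : (3 : ℝ) ≤ 2 * (rho n : ℝ) + 1 := by linarith
  have hy3 : (27 : ℝ) ≤ (2 * (rho n : ℝ) + 1) ^ 3 := by
    have := pow_le_pow_left₀ (by norm_num : (0 : ℝ) ≤ 3) hy 3
    norm_num at this
    linarith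
  rw [minorant_lam_eq, div_le_div_iff₀ (by norm_num) (by positivity)]
  linarith

theorem lam_le (n : ℕ) : lam n ≤ 1 := by
  have hx := minorant_rho_ge n
  have hy : (3 : ℝ) ≤ 2 * (rho n : ℝ) + 1 := by linarith
  have hy3 : (27 : ℝ) ≤ (2 * (rho n : ℝ) + 1) ^ 3 := by
    have := pow_le_pow_left₀ (by norm_num : (0 : ℝ) ≤ 3) hy 3
    norm_num at this
    linarith
  rw [minorant_lam_eq, div_le_one (by positivity)]
  linarith

theorem minorant_partial (t : ℕ → ℝ) (h : Adm t) (μ : ℝ) (n0 : ℕ) :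
    μ / 8 + ∑ n ∈ Finset.range n0, lam n * t n ≤ Fp μ t := by
  have h1 := minorant_fv t h μ (10 * rho n0) n0 le_rfl
  have hk1 : 1 ≤ 10 * rho n0 := by
    have : 1 ≤ rho n0 := Nat.factorial_pos (n0 + 1)
    omega
  have h2 := logXi_le_Fp t h μ (2 * (10 * rho n0) - 2)
  have hcast : ((2 * (10 * rho n0) - 2 : ℕ) : ℝ) = 2 * ((10 * rho n0 : ℕ) : ℝ) - 2 := by
    rw [Nat.cast_sub (by omega)]
    push_cast
    ring
  rw [hcast] at h2
  have hkpos : (0 : ℝ) < ((10 * rho n0 : ℕ) : ℝ) := by exact_mod_cast hk1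
  have e1 : 2 * ((10 * rho n0 : ℕ) : ℝ) - 2 + 1 = 2 * ((10 * rho n0 : ℕ) : ℝ) - 1 := by ring
  have e2 : 2 * ((10 * rho n0 : ℕ) : ℝ) - 2 + 2 = 2 * ((10 * rho n0 : ℕ) : ℝ) := by ring
  rw [e1, e2] at h2
  have h3 : (8 * ((10 * rho n0 : ℕ) : ℝ) ^ 3) * (μ / 8 + ∑ n ∈ Finset.range n0, lam n * t n)
      ≤ (8 * ((10 * rho n0 : ℕ) : ℝ) ^ 3) * Fp μ t := by
    have e3 : (2 * ((10 * rho n0 : ℕ) : ℝ)) ^ 3 * Fp μ t
        = (8 * ((10 * rho n0 : ℕ) : ℝ) ^ 3) * Fp μ t := by ring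
    have e4 : (8 * ((10 * rho n0 : ℕ) : ℝ) ^ 3) * (μ / 8 + ∑ n ∈ Finset.range n0, lam n * t n)
        = ((10 * rho n0 : ℕ) : ℝ) ^ 3 * μ
          + ((10 * rho n0 : ℕ) : ℝ) ^ 3 * (8 * ∑ n ∈ Finset.range n0, lam n * t n) := by ring
    rw [e4, ← e3]
    exact le_trans h1 h2
  exact le_of_mul_le_mul_left h3 (by positivity)

theorem minorant (t : ℕ → ℝ) (h : Adm t) (μ : ℝ) : μ / 8 + ∑' n, lam n * t n ≤ Fp μ t := by
  have hs : Summable fun n => lam n * t n := by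
    refine Summable.of_nonneg_of_le (fun n => ?_) (fun n => ?_) h.2
    · exact mul_nonneg (le_trans (by norm_num) (lam_ge n)) (h.1 n)
    · calc lam n * t n ≤ 1 * t n := mul_le_mul_of_nonneg_right (lam_le n) (h.1 n)
        _ = t n := one_mul _
  have ht : Filter.Tendsto (fun n0 : ℕ => μ / 8 + ∑ n ∈ Finset.range n0, lam n * t n)
      Filter.atTop (nhds (μ / 8 + ∑' n, lam n * t n)) :=
    tendsto_const_nhds.add hs.hasSum.tendsto_sum_nat
  exact le_of_tendsto' ht (fun n0 => minorant_partial t h μ n0)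

end Vale.Agent.H96.P171
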