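import Mathlib
import Vale.Agent.H96.P171.Defs
import Vale.Agent.H96.P171.Fekete
import Vale.Agent.H96.P171.Minorant
import Vale.Agent.H96.P171.LP
import Vale.Agent.H30.P171.Cone

/-!
# P171 moonshot, step (8): Ekeland + contradiction

On the complete space `X = {x : ℝ × lp (fun _ : ℕ => ℝ) 1 // ∀ n, 0 ≤ x.2 n}` apply `ekeland` to
`h x = Fp x.1 x.2 - θ (x.1/8 + ∑ lam n * x.2 n)`, `θ = 1/100`, `η = 10^(-6)` (`h ≥ 0` by `minorant` and `Fp_nonneg`, lsc by `Fp_lsc`).
If `Fp · t'` had derivative `d'` at `μ'`: `θ/8 - η ≤ d' ≤ θ/8 + η` (directions `±μ`), and with `lp_deriv` (`ε = 10^(-6)`) and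
direction `σ e_n`: `θ lam n - η ≤ (21/2) d'^2 + ε`, false since `lam n ≥ 1/300`.
Paper proof: `Vale/Agent/H96/P171/PLAN.md`.
-/

open MeasureTheory
open scoped ENNReal

namespace Vale.Agent.H96.P171

theorem kink_aux (s D a : ℝ) (hs : s ≠ 0) : s⁻¹ * D - a = s⁻¹ * (D - a * s) := by
  field_simp

open Vale.Agent.H30.P171 in
theorem kink_adm (x : X) (hx : x ∈ cone) : Adm (fun n => x.2 n) := by
  refine ⟨hx, ?_⟩
  exact (summable_abs x.2).congr (fun n => abs_of_nonneg (hx n))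

open Vale.Agent.H30.P171 in
theorem kink_convexOn : ConvexOn ℝ cone (fun x : X => Fp x.1 (fun n => x.2 n)) := by
  have hc : Convex ℝ cone := by
    intro x hx y hy a b ha hb _ n
    show 0 ≤ (a • x.2 + b • y.2 : lp (fun _ : ℕ => ℝ) 1) n
    rw [lp.coeFn_add, lp.coeFn_smul, lp.coeFn_smul]
    simp only [Pi.add_apply, Pi.smul_apply, smul_eq_mul]
    exact add_nonneg (mul_nonneg ha (hx n)) (mul_nonneg hb (hy n))
  refine ⟨hc, fun x hx y hy a b ha hb hab => ?_⟩
  have h := Fp_convex x.1 y.1 (fun n => x.2 n) (fun n => y.2 n) (kink_adm x hx) (kink_adm y hy)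
    a b ha hb hab
  have e1 : (a • x + b • y).1 = a * x.1 + b * y.1 := rfl
  have e2 : (fun n => (a • x + b • y).2 n) = fun n => a * x.2 n + b * y.2 n := by
    funext n
    show (a • x.2 + b • y.2 : lp (fun _ : ℕ => ℝ) 1) n = _
    rw [lp.coeFn_add, lp.coeFn_smul, lp.coeFn_smul]
    simp only [Pi.add_apply, Pi.smul_apply, smul_eq_mul]
  show Fp (a • x + b • y).1 (fun n => (a • x + b • y).2 n)
    ≤ a • Fp x.1 (fun n => x.2 n) + b • Fp y.1 (fun n => y.2 n)
  rw [e1, e2, smul_eq_mul, smul_eq_mul]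
  exact h

open Vale.Agent.H30.P171 in
theorem kink_bdd (r : ℝ) : ∃ M : ℝ, ∀ x ∈ cone, ‖x‖ ≤ r → Fp x.1 (fun n => x.2 n) ≤ M := by
  obtain ⟨B, _, hB⟩ := Fp_le r
  refine ⟨Real.exp (r + B), fun x hx hxr => ?_⟩
  have hsum : ∑' n, x.2 n ≤ r := by
    have h1 : ∑' n, x.2 n = ‖x.2‖ := by
      rw [norm_eq_tsum]
      congr 1
      funext n
      exact (abs_of_nonneg (hx n)).symm
    rw [h1]
    exact (norm_snd_le x).trans hxr
  refine (hB _ (kink_adm x hx) hsum x.1).trans (Real.exp_le_exp.2 ?_)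
  have h2 : x.1 ≤ r := by
    have h3 : ‖x.1‖ ≤ r := (norm_fst_le x).trans hxr
    rw [Real.norm_eq_abs] at h3
    exact (le_abs_self _).trans h3
  linarith

open Vale.Agent.H30.P171 in
theorem kink : ∃ (t : ℕ → ℝ) (μ : ℝ), Adm t ∧ ¬ DifferentiableAt ℝ (fun m : ℝ => Fp m t) μ := by
  obtain ⟨x', hx', -, hE1, hE1', hE2⟩ :=
    ekeland_cone_full (fun x : X => Fp x.1 (fun n => x.2 n)) kink_convexOn
      (fun x hx y hy hxy hle => by
        show Fp x.1 (fun n => x.2 n) ≤ Fp y.1 (fun n => y.2 n)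
        rw [hxy]
        exact Fp_mono y.1 _ _ (kink_adm x hx) (kink_adm y hy) hle)
      (fun x hx => Fp_nonneg _ (kink_adm x hx) x.1) kink_bdd lam
      (fun n => le_trans (by norm_num) (lam_ge n)) lam_le
      (fun x hx => minorant _ (kink_adm x hx) x.1) (1 / 100) (1 / 1000000) (by norm_num)
      (by norm_num) (by norm_num) 0 zero_mem_cone
  refine ⟨fun n => x'.2 n, x'.1, kink_adm x' hx', fun hdiff => ?_⟩
  have hd := hdiff.hasDerivAt
  obtain ⟨d', hd'⟩ : ∃ d' : ℝ, d' = deriv (fun m : ℝ => Fp m (fun n => x'.2 n)) x'.1 := ⟨_, rfl⟩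
  rw [← hd'] at hd
  -- upper bound for the derivative: left increments
  have hup : d' ≤ 1 / 100 / 8 + 1 / 1000000 := by
    refine le_of_tendsto hd.tendsto_slope_zero_left ?_
    filter_upwards [self_mem_nhdsWithin] with s hs
    have hs' : s < 0 := hs
    have h := hE1 (-s) (by linarith)
    have e : x'.1 - -s = x'.1 + s := by ring
    simp only [e] at h
    rw [smul_eq_mul]
    have hkey := kink_aux s (Fp (x'.1 + s) (fun n => x'.2 n) - Fp x'.1 (fun n => x'.2 n))
      (1 / 100 / 8 + 1 / 1000000) hs'.ne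
    have hneg := mul_nonpos_of_nonpos_of_nonneg (inv_nonpos.2 hs'.le)
      (show 0 ≤ (Fp (x'.1 + s) (fun n => x'.2 n) - Fp x'.1 (fun n => x'.2 n))
          - (1 / 100 / 8 + 1 / 1000000) * s by linarith)
    linarith
  -- lower bound for the derivative: right increments
  have hlo : 1 / 100 / 8 - 1 / 1000000 ≤ d' := by
    refine ge_of_tendsto hd.tendsto_slope_zero_right ?_
    filter_upwards [self_mem_nhdsWithin] with s hs
    have hs' : 0 < s := hs
    have h := hE1' s hs'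
    rw [smul_eq_mul]
    have hkey := kink_aux s (Fp (x'.1 + s) (fun n => x'.2 n) - Fp x'.1 (fun n => x'.2 n))
      (1 / 100 / 8 - 1 / 1000000) hs'.ne'
    have hpos := mul_nonneg (inv_nonneg.2 hs'.le)
      (show 0 ≤ (Fp (x'.1 + s) (fun n => x'.2 n) - Fp x'.1 (fun n => x'.2 n))
          - (1 / 100 / 8 - 1 / 1000000) * s by linarith)
    linarith
  -- the Lebowitz-Penrose bound for a far bump
  obtain ⟨σ, hσ, n0, hn0⟩ :=
    lp_deriv (fun n => x'.2 n) (kink_adm x' hx') x'.1 d' hd (1 / 1000000) (by norm_num)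
  have h1 := hn0 n0 le_rfl
  have h2 := hE2 n0 σ hσ
  have e3 : (fun k => (x'.2 + σ • e n0 : lp (fun _ : ℕ => ℝ) 1) k)
      = addAt (fun n => x'.2 n) n0 σ := by
    funext k
    rw [lp.coeFn_add, lp.coeFn_smul]
    simp only [Pi.add_apply, Pi.smul_apply, smul_eq_mul, addAt]
    by_cases hk : k = n0
    · subst hk
      rw [e_apply_self]
      simp
    · rw [e_apply_ne n0 hk]
      simp [hk]
  simp only [e3] at h2
  have hlam := lam_ge n0
  have h3 : 1 / 100 * lam n0 - 1 / 1000000 ≤ 21 / 2 * d' ^ 2 + 1 / 1000000 := by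
    by_contra hc
    push Not at hc
    have := mul_lt_mul_of_pos_left hc hσ
    nlinarith
  have h4 : d' ^ 2 ≤ (1 / 100 / 8 + 1 / 1000000) ^ 2 :=
    pow_le_pow_left₀ (le_trans (by norm_num) hlo) hup 2
  nlinarith

end Vale.Agent.H96.P171
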