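import Mathlib
import Vale.Agent.H96.P171.Defs
import Vale.Agent.H96.P171.Energy.Basic
import Vale.Agent.H96.P171.Meas.LMeasBw

/-!
# P171 moonshot, the attractive tail is integrable

For `r ≥ 1`: `Phi t r = -∑ t_n bump n r`, `0 ≤ bump n r ≤ R_n^(-3) 1[r < R_n]`, so
`∫_{[1,∞)} |Phi t r| r^2 dr ≤ ∑ t_n R_n^(-3) ∫_1^{R_n} r^2 dr ≤ (∑ t_n)/3`.
Suggested route: measurability from `measurable_Phi`; finiteness of the `lintegral` of the norm by `lintegral_tsum`
(or bound the norm by the monotone limit of the partial sums).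
Paper proof: `Vale/Agent/H96/P171/PLAN.md`.
-/

open MeasureTheory
open scoped ENNReal

namespace Vale.Agent.H96.P171

/-- One term of the tail series against the dominating step function. -/
theorem tail_term (t : ℕ → ℝ) (h : Adm t) (n : ℕ) (r : ℝ) (hr : 1 ≤ r) :
    ENNReal.ofReal (t n * bump n r * r ^ 2)
      ≤ (Set.Ico 1 (Rn n)).indicator (fun _ => ENNReal.ofReal (t n / Rn n)) r := by
  by_cases hlt : r < Rn n
  · rw [Set.indicator_of_mem (show r ∈ Set.Ico 1 (Rn n) from ⟨hr, hlt⟩)]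
    apply ENNReal.ofReal_le_ofReal
    have hb : bump n r = ((Rn n)⁻¹) ^ 3 := by
      unfold bump
      rw [if_pos hlt]
    rw [hb]
    have hR : 0 < Rn n := basic_Rn_pos n
    have h1 : r ^ 2 ≤ (Rn n) ^ 2 := by nlinarith
    have h2 : t n * ((Rn n)⁻¹) ^ 3 * r ^ 2 ≤ t n * ((Rn n)⁻¹) ^ 3 * (Rn n) ^ 2 :=
      mul_le_mul_of_nonneg_left h1 (mul_nonneg (h.1 n) (by positivity))
    have h3 : t n * ((Rn n)⁻¹) ^ 3 * (Rn n) ^ 2 = t n / Rn n := by
      field_simp
    linarith
  · have hb : bump n r = 0 := by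
      unfold bump
      rw [if_neg hlt]
    rw [hb]
    simp

/-- Pointwise domination of the tail on the half-line. -/
theorem tail_pointwise (t : ℕ → ℝ) (h : Adm t) (r : ℝ) (hr : 1 ≤ r) :
    ‖Phi t r * r ^ 2‖ₑ
      ≤ ∑' n, (Set.Ico 1 (Rn n)).indicator (fun _ => ENNReal.ofReal (t n / Rn n)) r := by
  have h0 : phi0 r = 0 := by
    unfold phi0
    rw [if_neg (not_lt.mpr hr)]
  have hs : Summable (fun n => t n * bump n r) := summable_t_bump t h r
  have hs2 : Summable (fun n => t n * bump n r * r ^ 2) := hs.mul_right _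
  have hnn : ∀ n, 0 ≤ t n * bump n r * r ^ 2 := fun n =>
    mul_nonneg (mul_nonneg (h.1 n) (bump_nonneg n r)) (sq_nonneg r)
  have hT : 0 ≤ ∑' n, t n * bump n r :=
    tsum_nonneg (fun n => mul_nonneg (h.1 n) (bump_nonneg n r))
  have e1 : |Phi t r * r ^ 2| = ∑' n, t n * bump n r * r ^ 2 := by
    unfold Phi
    rw [h0, zero_sub, neg_mul, abs_neg, abs_of_nonneg (mul_nonneg hT (sq_nonneg r)),
      tsum_mul_right]
  rw [Real.enorm_eq_ofReal_abs, e1, ENNReal.ofReal_tsum_of_nonneg hnn hs2]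
  exact ENNReal.tsum_le_tsum (fun n => tail_term t h n r hr)

/-- The integral of one dominating step. -/
theorem tail_step (t : ℕ → ℝ) (h : Adm t) (n : ℕ) :
    ∫⁻ r in Set.Ici (1 : ℝ), (Set.Ico 1 (Rn n)).indicator
      (fun _ => ENNReal.ofReal (t n / Rn n)) r ≤ ENNReal.ofReal (t n) := by
  have hR : 0 < Rn n := basic_Rn_pos n
  have h6 : 6 ≤ Rn n := Rn_ge n
  calc ∫⁻ r in Set.Ici (1 : ℝ), (Set.Ico 1 (Rn n)).indicator
        (fun _ => ENNReal.ofReal (t n / Rn n)) r
      ≤ ∫⁻ r, (Set.Ico 1 (Rn n)).indicator (fun _ => ENNReal.ofReal (t n / Rn n)) r :=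
        setLIntegral_le_lintegral _ _
    _ = ENNReal.ofReal (t n / Rn n) * volume (Set.Ico 1 (Rn n)) :=
        lintegral_indicator_const measurableSet_Ico _
    _ = ENNReal.ofReal (t n / Rn n * (Rn n - 1)) := by
        rw [Real.volume_Ico, ← ENNReal.ofReal_mul (div_nonneg (h.1 n) hR.le)]
    _ ≤ ENNReal.ofReal (t n) := by
        apply ENNReal.ofReal_le_ofReal
        have h1 : t n / Rn n * (Rn n - 1) = t n - t n / Rn n := by
          field_simp
        have h2 : 0 ≤ t n / Rn n := div_nonneg (h.1 n) hR.le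
        linarith

/-- The radial integral of the tail converges: `r ↦ Phi t r * r^2` is integrable on `[1,∞)`. -/
theorem tail_integrable (t : ℕ → ℝ) (h : Adm t) :
    IntegrableOn (fun r : ℝ => Phi t r * r ^ 2) (Set.Ici 1) := by
  refine ⟨((measurable_Phi t h).mul (measurable_id.pow_const 2)).aestronglyMeasurable, ?_⟩
  show ∫⁻ r in Set.Ici (1 : ℝ), ‖Phi t r * r ^ 2‖ₑ < ⊤
  calc ∫⁻ r in Set.Ici (1 : ℝ), ‖Phi t r * r ^ 2‖ₑ
      ≤ ∫⁻ r in Set.Ici (1 : ℝ), ∑' n, (Set.Ico 1 (Rn n)).indicator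
          (fun _ => ENNReal.ofReal (t n / Rn n)) r :=
        setLIntegral_mono' measurableSet_Ici (fun r hr => tail_pointwise t h r hr)
    _ = ∑' n, ∫⁻ r in Set.Ici (1 : ℝ), (Set.Ico 1 (Rn n)).indicator
          (fun _ => ENNReal.ofReal (t n / Rn n)) r :=
        lintegral_tsum (fun n => (measurable_const.indicator measurableSet_Ico).aemeasurable)
    _ ≤ ∑' n, ENNReal.ofReal (t n) := ENNReal.tsum_le_tsum (fun n => tail_step t h n)
    _ < ⊤ := by
        rw [← ENNReal.ofReal_tsum_of_nonneg h.1 h.2]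
        exact ENNReal.ofReal_lt_top

end Vale.Agent.H96.P171
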