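import Mathlib
import Vale.Agent.H96.P171.Setting
import Vale.Agent.H96.P171.Defs
import Vale.Agent.H96.P171.Meas
import Vale.Agent.H96.P171.Fekete
import Vale.Agent.H96.P171.Kink
import Vale.Agent.H96.P171.Bridge
import Vale.Agent.H96.P171.Tail

/-!
# P171 moonshot, the final statement with the jump of the density

Same assembly as `Final.lean`, plus: the pressure `m ↦ Fp m t` is convex in the chemical potential,
so at the point where it is not differentiable its one-sided derivatives exist and differ; the same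
then holds for `P z = Fp (log z) t` at `z0 = exp μ'`.
-/

open MeasureTheory
open scoped ENNReal

namespace Vale.Agent.H96.P171

/-- The pressure is convex in the chemical potential. -/
theorem jump_convex (t : ℕ → ℝ) (h : Adm t) : ConvexOn ℝ Set.univ (fun m : ℝ => Fp m t) := by
  refine ⟨convex_univ, ?_⟩
  intro x _ y _ a b ha hb hab
  have h1 := Fp_convex x y t t h h a b ha hb hab
  have h2 : (fun n => a * t n + b * t n) = t := by
    funext n
    rw [← add_mul, hab, one_mul]
  rw [h2] at h1
  simpa [smul_eq_mul] using h1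

/-- A convex function on the line that is not differentiable at a point has one-sided derivatives
there which differ. -/
theorem jump_of_convex (G : ℝ → ℝ) (hG : ConvexOn ℝ Set.univ G) (x : ℝ)
    (hnd : ¬ DifferentiableAt ℝ G x) :
    ∃ a b : ℝ, a < b ∧ HasDerivWithinAt G a (Set.Iio x) x ∧ HasDerivWithinAt G b (Set.Ioi x) x := by
  have hx : x ∈ interior (Set.univ : Set ℝ) := by simp
  have hl := hG.hasDerivWithinAt_leftDeriv_of_mem_interior hx
  have hr := hG.hasDerivWithinAt_rightDeriv_of_mem_interior hx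
  have hle := hG.leftDeriv_le_rightDeriv_of_mem_interior hx
  refine ⟨derivWithin G (Set.Iio x) x, derivWithin G (Set.Ioi x) x, ?_, hl, hr⟩
  rcases lt_or_eq_of_le hle with hlt | heq
  · exact hlt
  · exfalso
    apply hnd
    rw [heq] at hl
    have hu := hl.union hr
    have hset : Set.Iio x ∪ Set.Ioi x = Set.univ \ {x} := by
      ext y
      simp only [Set.mem_union, Set.mem_Iio, Set.mem_Ioi, Set.mem_sdiff, Set.mem_univ, true_and,
        Set.mem_singleton_iff]
      constructor
      · rintro (h | h)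
        · exact ne_of_lt h
        · exact ne_of_gt h
      · intro h
        exact lt_or_gt_of_ne h
    rw [hset, hasDerivWithinAt_sdiff_singleton, hasDerivWithinAt_univ] at hu
    exact hu.differentiableAt

/-- Transport of a one-sided derivative from the chemical potential to the activity. -/
theorem jump_log_left (G : ℝ → ℝ) (μ a : ℝ) (h : HasDerivWithinAt G a (Set.Iio μ) μ) :
    HasDerivWithinAt (fun z : ℝ => G (Real.log z)) (a * (Real.exp μ)⁻¹) (Set.Iio (Real.exp μ))
      (Real.exp μ) := by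
  have hz : (0 : ℝ) < Real.exp μ := Real.exp_pos μ
  have hlog : HasDerivWithinAt Real.log (Real.exp μ)⁻¹ (Set.Iio (Real.exp μ) ∩ Set.Ioi 0)
      (Real.exp μ) := (Real.hasDerivAt_log hz.ne').hasDerivWithinAt
  have hmaps : Set.MapsTo Real.log (Set.Iio (Real.exp μ) ∩ Set.Ioi 0) (Set.Iio μ) := by
    intro z hz'
    have h1 : Real.log z < Real.log (Real.exp μ) := Real.log_lt_log hz'.2 hz'.1
    rwa [Real.log_exp] at h1
  have h' : HasDerivWithinAt G a (Set.Iio μ) (Real.log (Real.exp μ)) := by
    rw [Real.log_exp]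
    exact h
  have hc := HasDerivWithinAt.comp (Real.exp μ) h' hlog hmaps
  have hc2 : HasDerivWithinAt (fun z : ℝ => G (Real.log z)) (a * (Real.exp μ)⁻¹)
      (Set.Iio (Real.exp μ) ∩ Set.Ioi 0) (Real.exp μ) := hc
  exact (hasDerivWithinAt_inter (Ioi_mem_nhds hz)).mp hc2

/-- Transport of a one-sided derivative from the chemical potential to the activity. -/
theorem jump_log_right (G : ℝ → ℝ) (μ b : ℝ) (h : HasDerivWithinAt G b (Set.Ioi μ) μ) :
    HasDerivWithinAt (fun z : ℝ => G (Real.log z)) (b * (Real.exp μ)⁻¹) (Set.Ioi (Real.exp μ))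
      (Real.exp μ) := by
  have hz : (0 : ℝ) < Real.exp μ := Real.exp_pos μ
  have hlog : HasDerivWithinAt Real.log (Real.exp μ)⁻¹ (Set.Ioi (Real.exp μ))
      (Real.exp μ) := (Real.hasDerivAt_log hz.ne').hasDerivWithinAt
  have hmaps : Set.MapsTo Real.log (Set.Ioi (Real.exp μ)) (Set.Ioi μ) := by
    intro z hz'
    have h1 : Real.log (Real.exp μ) < Real.log z := Real.log_lt_log hz hz'
    rwa [Real.log_exp] at h1
  have h' : HasDerivWithinAt G b (Set.Ioi μ) (Real.log (Real.exp μ)) := by
    rw [Real.log_exp]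
    exact h
  exact HasDerivWithinAt.comp (Real.exp μ) h' hlog hmaps

/-- There is a Borel, locally bounded, stable, tempered radial pair potential, nonpositive and
`O(r^(-3))` on `[1,∞)` with `∫_1^∞ |φ(r)| r^2 dr < ∞`, whose pressure exists for every activity
and has, at some activity, one-sided derivatives which differ (so it is not differentiable there). -/
theorem final_jump : ∃ φ : ℝ → ℝ,
    Measurable φ ∧
    (∀ a b : ℝ, 0 < a → a ≤ b → ∃ M : ℝ, ∀ r ∈ Set.Icc a b, |φ r| ≤ M) ∧
    Stable φ ∧ Tempered φ ∧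
    (∀ r : ℝ, 1 ≤ r → φ r ≤ 0) ∧
    (∃ C : ℝ, ∀ r : ℝ, 1 ≤ r → |φ r| ≤ C / r ^ 3) ∧
    IntegrableOn (fun r : ℝ => φ r * r ^ 2) (Set.Ici 1) ∧
    (∀ (L : ℝ) (N : ℕ), IntegrableOn (fun x : Fin N → E3 => Real.exp (-(1 * pairEnergy φ N x)))
      {x : Fin N → E3 | ∀ i, x i ∈ box L}) ∧
    (∀ L z : ℝ, 0 < z → Summable fun N : ℕ => z ^ N * canonicalZ φ 1 L N) ∧
    ∃ P : ℝ → ℝ,
      (∀ z : ℝ, 0 < z →
        Filter.Tendsto (fun L : ℝ => Real.log (grandZ φ 1 L z) / L ^ 3) Filter.atTop (nhds (P z))) ∧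
      ∃ z0 : ℝ, 0 < z0 ∧ ¬ DifferentiableAt ℝ P z0 ∧
        ∃ dl dr : ℝ, dl < dr ∧ HasDerivWithinAt P dl (Set.Iio z0) z0 ∧
          HasDerivWithinAt P dr (Set.Ioi z0) z0 := by
  obtain ⟨t, μ', ht, hnd⟩ := kink
  refine ⟨Phi t, measurable_Phi t ht, phi_locbdd t ht, phi_stable t ht, phi_tempered t ht,
    fun r hr => Phi_nonpos t ht r hr, ⟨∑' n, t n, ?_⟩, tail_integrable t ht,
    boltz_integrable t ht, ?_, ?_⟩
  · intro r hr
    have h1 := Phi_nonpos t ht r hr
    have h2 := Phi_ge t ht r hr
    have hr0 : (0 : ℝ) < r := lt_of_lt_of_le one_pos hr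
    rw [abs_of_nonpos h1, div_eq_mul_inv, ← inv_pow]
    linarith
  · intro L z hz
    exact grandZ_summable t ht L z hz
  · refine ⟨fun z => Fp (Real.log z) t, ?_, Real.exp μ', Real.exp_pos μ', ?_, ?_⟩
    · intro z hz
      have h1 := tendsto_pressure t ht (Real.log z)
      refine h1.congr' ?_
      filter_upwards [Filter.eventually_ge_atTop (0 : ℝ)] with L hL
      rw [grandZ_eq t ht L hL z hz]
      rfl
    · intro hdiff
      apply hnd
      have h2 : DifferentiableAt ℝ
          ((fun z : ℝ => Fp (Real.log z) t) ∘ Real.exp) μ' :=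
        DifferentiableAt.comp μ' hdiff Real.differentiableAt_exp
      have h3 : ((fun z : ℝ => Fp (Real.log z) t) ∘ Real.exp) = fun m : ℝ => Fp m t := by
        funext m
        simp [Function.comp, Real.log_exp]
      rw [h3] at h2
      exact h2
    · obtain ⟨a, b, hab, hl, hr⟩ :=
        jump_of_convex (fun m : ℝ => Fp m t) (jump_convex t ht) μ' hnd
      have hz : (0 : ℝ) < (Real.exp μ')⁻¹ := inv_pos.mpr (Real.exp_pos μ')
      exact ⟨a * (Real.exp μ')⁻¹, b * (Real.exp μ')⁻¹, mul_lt_mul_of_pos_right hab hz,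
        jump_log_left (fun m : ℝ => Fp m t) μ' a hl,
        jump_log_right (fun m : ℝ => Fp m t) μ' b hr⟩

end Vale.Agent.H96.P171
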