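import Mathlib

/-!
# P171 moonshot: Ekeland's variational principle (weak form)

Standard proof: order `x ≼ y` iff `h y + η dist x y ≤ h x`; choose `x_(n+1)` in `S(x_n) = {y | x_n ≼ y}` with
`h x_(n+1) ≤ inf_{S(x_n)} h + 2^(-n)`; the sets `S(x_n)` are closed, nested, with diameters `→ 0`; their common point works.
-/

namespace Vale.Agent.H96.P171

theorem ekeland_step {X : Type} [MetricSpace X] (h : X → ℝ) (hb : ∃ m : ℝ, ∀ x, m ≤ h x)
    (η : ℝ) (x : X) (ε : ℝ) (hε : 0 < ε) :
    ∃ x' : X, h x' + η * dist x x' ≤ h x ∧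
      ∀ y, h y + η * dist x y ≤ h x → h x' ≤ h y + ε := by
  obtain ⟨m, hm⟩ := hb
  have hne : (h '' {y | h y + η * dist x y ≤ h x}).Nonempty :=
    ⟨h x, x, by simp, rfl⟩
  have hbdd : BddBelow (h '' {y | h y + η * dist x y ≤ h x}) :=
    ⟨m, by rintro _ ⟨y, -, rfl⟩; exact hm y⟩
  obtain ⟨a, ⟨x', hx', rfl⟩, ha⟩ :=
    exists_lt_of_csInf_lt hne
      (lt_add_of_pos_right (sInf (h '' {y | h y + η * dist x y ≤ h x})) hε)
  refine ⟨x', hx', fun y hy => ?_⟩
  have h1 : sInf (h '' {y | h y + η * dist x y ≤ h x}) ≤ h y := csInf_le hbdd ⟨y, hy, rfl⟩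
  linarith

theorem ekeland_trans {X : Type} [MetricSpace X] (h : X → ℝ) (η : ℝ) (hη : 0 < η) {a b c : X}
    (hab : h b + η * dist a b ≤ h a) (hbc : h c + η * dist b c ≤ h b) :
    h c + η * dist a c ≤ h a := by
  have h1 := dist_triangle a b c
  nlinarith

theorem ekeland {X : Type} [MetricSpace X] [CompleteSpace X] [Nonempty X] (h : X → ℝ)
    (hl : LowerSemicontinuous h) (hb : ∃ m : ℝ, ∀ x, m ≤ h x) (η : ℝ) (hη : 0 < η) :
    ∃ x : X, ∀ y : X, h x - η * dist x y ≤ h y := by
  obtain ⟨x0⟩ := ‹Nonempty X›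
  choose f hf1 hf2 using fun (x : X) (n : ℕ) =>
    ekeland_step h hb η x ((1 / 2 : ℝ) ^ n) (by positivity)
  let x : ℕ → X := fun n => Nat.rec x0 (fun k xk => f xk k) n
  have hx_succ : ∀ n, x (n + 1) = f (x n) n := fun n => rfl
  have hstep : ∀ n, h (x (n + 1)) + η * dist (x n) (x (n + 1)) ≤ h (x n) := fun n => by
    rw [hx_succ]
    exact hf1 (x n) n
  have hmono : ∀ n k, n ≤ k → h (x k) + η * dist (x n) (x k) ≤ h (x n) := by
    intro n k hnk
    induction k, hnk using Nat.le_induction with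
    | base => simp
    | succ k hk ih => exact ekeland_trans h η hη ih (hstep k)
  have hsmall : ∀ n y, h y + η * dist (x (n + 1)) y ≤ h (x (n + 1)) →
      dist (x (n + 1)) y ≤ (1 / 2 : ℝ) ^ n / η := by
    intro n y hy
    have h1 : h y + η * dist (x n) y ≤ h (x n) := ekeland_trans h η hη (hstep n) hy
    have h2 : h (x (n + 1)) ≤ h y + (1 / 2 : ℝ) ^ n := by
      rw [hx_succ]
      exact hf2 (x n) n y h1
    rw [le_div_iff₀ hη]
    linarith
  have hb0 : Filter.Tendsto (fun n : ℕ => (1 / 2 : ℝ) ^ n / η) Filter.atTop (nhds 0) := by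
    have h1 := (tendsto_pow_atTop_nhds_zero_of_lt_one (by norm_num : (0 : ℝ) ≤ 1 / 2)
      (by norm_num : (1 / 2 : ℝ) < 1)).div_const η
    simpa using h1
  have hcauchy : CauchySeq (fun n => x (n + 1)) := by
    refine cauchySeq_of_le_tendsto_0 (fun N : ℕ => 2 * ((1 / 2 : ℝ) ^ N / η)) ?_ ?_
    · intro n m N hn hm
      have h1 := hsmall N (x (n + 1)) (hmono (N + 1) (n + 1) (by omega))
      have h2 := hsmall N (x (m + 1)) (hmono (N + 1) (m + 1) (by omega))
      have h3 := dist_triangle_left (x (n + 1)) (x (m + 1)) (x (N + 1))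
      linarith
    · have h1 := hb0.const_mul 2
      simpa using h1
  obtain ⟨xb, hxb⟩ := cauchySeq_tendsto_of_complete hcauchy
  have hlim : ∀ n, h xb + η * dist (x n) xb ≤ h (x n) := by
    intro n
    have hcl : IsClosed {y | h y + η * dist (x n) y ≤ h (x n)} := by
      have hlsc : LowerSemicontinuous (fun y => h y + η * dist (x n) y) :=
        hl.add (Continuous.lowerSemicontinuous (by fun_prop))
      exact hlsc.isClosed_preimage (h (x n))
    refine hcl.mem_of_tendsto hxb (Filter.eventually_atTop.2 ⟨n, fun k hk => ?_⟩)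
    exact hmono n (k + 1) (by omega)
  refine ⟨xb, fun y => ?_⟩
  by_contra hcon
  rw [not_le] at hcon
  have hy : h y + η * dist xb y ≤ h xb := by linarith
  have hyn : ∀ n, dist (x (n + 1)) y ≤ (1 / 2 : ℝ) ^ n / η := fun n =>
    hsmall n y (ekeland_trans h η hη (hlim (n + 1)) hy)
  have hty : Filter.Tendsto (fun n => x (n + 1)) Filter.atTop (nhds y) := by
    rw [tendsto_iff_dist_tendsto_zero]
    exact squeeze_zero (fun n => dist_nonneg) hyn hb0
  have hxy : xb = y := tendsto_nhds_unique hxb hty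
  rw [hxy, dist_self] at hcon
  linarith

end Vale.Agent.H96.P171
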