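import Mathlib
import Vale.Agent.H96.P171.Setting
import Vale.Agent.H96.P171.Defs
import Vale.Agent.H96.P171.Meas
import Vale.Agent.H96.P171.Fekete
import Vale.Agent.H96.P171.Kink
import Vale.Agent.H96.P171.Bridge
import Vale.Agent.H96.P171.Tail

/-!
# P171 moonshot, the final statement

Assembly of `kink`, `tendsto_pressure` and the bridge lemmas; `P z = Fp (log z) t`.
Paper proof: `Vale/Agent/H96/P171/PLAN.md`.
-/

open MeasureTheory
open scoped ENNReal

namespace Vale.Agent.H96.P171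

/-- There is a Borel, locally bounded, stable, tempered radial pair potential, nonpositive and
`O(r^(-3))` on `[1,∞)` with `∫_1^∞ |φ(r)| r^2 dr < ∞`, whose pressure exists for every activity
and is not differentiable at some activity. -/
theorem final_statement : ∃ φ : ℝ → ℝ,
    Measurable φ ∧
    (∀ a b : ℝ, 0 < a → a ≤ b → ∃ M : ℝ, ∀ r ∈ Set.Icc a b, |φ r| ≤ M) ∧
    Stable φ ∧ Tempered φ ∧
    (∀ r : ℝ, 1 ≤ r → φ r ≤ 0) ∧
    (∃ C : ℝ, ∀ r : ℝ, 1 ≤ r → |φ r| ≤ C / r ^ 3) ∧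
    IntegrableOn (fun r : ℝ => φ r * r ^ 2) (Set.Ici 1) ∧
    (∀ (L : ℝ) (N : ℕ), IntegrableOn (fun x : Fin N → E3 => Real.exp (-(1 * pairEnergy φ N x)))
      {x : Fin N → E3 | ∀ i, x i ∈ box L}) ∧
    (∀ L z : ℝ, 0 < z → Summable fun N : ℕ => z ^ N * canonicalZ φ 1 L N) ∧
    ∃ P : ℝ → ℝ,
      (∀ z : ℝ, 0 < z →
        Filter.Tendsto (fun L : ℝ => Real.log (grandZ φ 1 L z) / L ^ 3) Filter.atTop (nhds (P z))) ∧
      ∃ z0 : ℝ, 0 < z0 ∧ ¬ DifferentiableAt ℝ P z0 := by
  obtain ⟨t, μ', ht, hnd⟩ := kink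
  refine ⟨Phi t, measurable_Phi t ht, phi_locbdd t ht, phi_stable t ht, phi_tempered t ht,
    fun r hr => Phi_nonpos t ht r hr, ⟨∑' n, t n, ?_⟩, tail_integrable t ht,
    boltz_integrable t ht, ?_, ?_⟩
  · intro r hr
    have h1 := Phi_nonpos t ht r hr
    have h2 := Phi_ge t ht r hr
    have hr0 : (0 : ℝ) < r := lt_of_lt_of_le one_pos hr
    rw [abs_of_nonpos h1, div_eq_mul_inv, ← inv_pow]
    linarith
  · intro L z hz
    exact grandZ_summable t ht L z hz
  · refine ⟨fun z => Fp (Real.log z) t, ?_, Real.exp μ', Real.exp_pos μ', ?_⟩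
    · intro z hz
      have h1 := tendsto_pressure t ht (Real.log z)
      refine h1.congr' ?_
      filter_upwards [Filter.eventually_ge_atTop (0 : ℝ)] with L hL
      rw [grandZ_eq t ht L hL z hz]
      rfl
    · intro hdiff
      apply hnd
      have h2 : DifferentiableAt ℝ
          ((fun z : ℝ => Fp (Real.log z) t) ∘ Real.exp) μ' :=
        DifferentiableAt.comp μ' hdiff Real.differentiableAt_exp
      have h3 : ((fun z : ℝ => Fp (Real.log z) t) ∘ Real.exp) = fun m : ℝ => Fp m t := by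
        funext m
        simp [Function.comp, Real.log_exp]
      rw [h3] at h2
      exact h2

end Vale.Agent.H96.P171
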