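import Mathlib
import Vale.Agent.H96.P171.Defs
import Vale.Agent.H96.P171.Fekete

/-!
# P171 moonshot, step (5): lower semicontinuity of the pressure on the cone

From `Fp_convex`, `Fp_mono`, `Fp_nonneg`, `Fp_le` only. For `(μ',t')` near `(μ,t)`: `w = min(t,t')`, `Fp μ' t' ≥ Fp μ' w`;
`(μ,t) = (1-1/S)(μ',w) + (1/S)((μ',w) + S((μ,t)-(μ',w)))` with `S = 1/δ`, so `Fp μ' w ≥ Fp μ t - M δ`.
Paper proof: `Vale/Agent/H96/P171/PLAN.md`.
-/

open MeasureTheory
open scoped ENNReal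

namespace Vale.Agent.H96.P171

theorem Fp_lsc (μ : ℝ) (t : ℕ → ℝ) (h : Adm t) (ε : ℝ) (hε : 0 < ε) :
    ∃ δ : ℝ, 0 < δ ∧ ∀ (μ' : ℝ) (t' : ℕ → ℝ), Adm t' → |μ' - μ| < δ →
      ∑' n, |t' n - t n| < δ → Fp μ t - ε < Fp μ' t' := by
  obtain ⟨B, hB0, hB⟩ := Fp_le (∑' n, t n + 1)
  set M : ℝ := Real.exp (μ + 2 + B) with hM
  have hM0 : 0 < M := Real.exp_pos _
  refine ⟨min 1 (ε / (M + 1)), lt_min one_pos (div_pos hε (by linarith)), ?_⟩
  intro μ' t' h' hμ ht
  set δ : ℝ := min 1 (ε / (M + 1)) with hδ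
  have hδ0 : 0 < δ := lt_min one_pos (div_pos hε (by linarith))
  have hδ1 : δ ≤ 1 := min_le_left _ _
  have hδε : δ * (M + 1) ≤ ε := by
    have : δ ≤ ε / (M + 1) := min_le_right _ _
    rwa [le_div_iff₀ (by linarith)] at this
  -- the meet
  set w : ℕ → ℝ := fun n => min (t n) (t' n) with hw
  have hw0 : ∀ n, 0 ≤ w n := fun n => le_min (h.1 n) (h'.1 n)
  have hwt : ∀ n, w n ≤ t n := fun n => min_le_left _ _
  have hwt' : ∀ n, w n ≤ t' n := fun n => min_le_right _ _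
  have hws : Summable w := Summable.of_nonneg_of_le hw0 hwt h.2
  have hwA : Adm w := ⟨hw0, hws⟩
  have h1 : Fp μ' w ≤ Fp μ' t' := Fp_mono μ' w t' hwA h' hwt'
  -- the far point
  set zt : ℕ → ℝ := fun n => w n + (t n - w n) / δ with hzt
  set zμ : ℝ := μ' + (μ - μ') / δ with hzμ
  have hz0 : ∀ n, 0 ≤ zt n := fun n =>
    add_nonneg (hw0 n) (div_nonneg (sub_nonneg.mpr (hwt n)) hδ0.le)
  have hds : Summable fun n => (t n - w n) / δ := (h.2.sub hws).div_const δ
  have hzs : Summable zt := hws.add hds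
  have hzA : Adm zt := ⟨hz0, hzs⟩
  have habs : Summable fun n => |t' n - t n| := (h'.2.sub h.2).abs
  have hdiff : ∑' n, (t n - w n) ≤ ∑' n, |t' n - t n| := by
    refine (h.2.sub hws).tsum_le_tsum (fun n => ?_) habs
    simp only [hw]
    rcases min_cases (t n) (t' n) with hc | hc
    · rw [hc.1]; simp
    · rw [hc.1]
      have := neg_abs_le (t' n - t n)
      linarith
  have hzsum : ∑' n, zt n ≤ ∑' n, t n + 1 := by
    have e1 : ∑' n, zt n = ∑' n, w n + ∑' n, (t n - w n) / δ := hws.tsum_add hds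
    have e2 : ∑' n, (t n - w n) / δ = (∑' n, (t n - w n)) / δ := tsum_div_const
    have e3 : ∑' n, w n ≤ ∑' n, t n := hws.tsum_le_tsum hwt h.2
    have e4 : (∑' n, (t n - w n)) / δ ≤ 1 := by
      rw [div_le_one hδ0]
      linarith
    rw [e1, e2]; linarith
  have hzF : Fp zμ zt ≤ M := by
    refine le_trans (hB zt hzA hzsum zμ) ?_
    rw [hM]
    apply Real.exp_le_exp.mpr
    have hμ1 : (μ - μ') / δ ≤ 1 := by
      rw [div_le_one hδ0]
      have := neg_abs_le (μ' - μ)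
      linarith
    have hμ2 : μ' ≤ μ + 1 := by
      have := le_abs_self (μ' - μ)
      linarith
    rw [hzμ]; linarith
  -- convexity
  have hconv := Fp_convex μ' zμ w zt hwA hzA (1 - δ) δ (by linarith) hδ0.le (by ring)
  have e5 : (1 - δ) * μ' + δ * zμ = μ := by
    rw [hzμ]; field_simp; ring
  have e6 : (fun n => (1 - δ) * w n + δ * zt n) = t := by
    funext n
    simp only [hzt]; field_simp; ring
  rw [e5, e6] at hconv
  have hFw0 : 0 ≤ Fp μ' w := Fp_nonneg w hwA μ'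
  nlinarith [mul_nonneg hδ0.le hFw0, mul_le_mul_of_nonneg_left hzF hδ0.le]

end Vale.Agent.H96.P171
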